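import Mathlib

namespace Vale.Agent.Lib.P133

variable {A : Type*} [NonUnitalCStarAlgebra A]

/-- The `n`-fold diagonal amplification of `h` is properly infinite: for every `ε > 0` there is a
`2n × n` rectangular matrix `x` over `A` such that every entry of
`x^* diag(h, …, h) x - diag(h, …, h)` (a `2n × 2n` matrix) has norm less than `ε`. -/
def AmpProperlyInfinite (n : ℕ) (h : A) : Prop :=
  ∀ ε > (0 : ℝ), ∃ x : Fin n → Fin (2 * n) → A, ∀ a b : Fin (2 * n),
    ‖∑ j, star (x j a) * h * x j b - (if a = b then h else 0)‖ < ε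

/-- `A` is purely infinite: each positive element is properly infinite. -/
def PurelyInfinite (A : Type*) [NonUnitalCStarAlgebra A] [PartialOrder A] : Prop :=
  ∀ h : A, 0 ≤ h → AmpProperlyInfinite 1 h

/-- `A` is weakly purely infinite: for some `n ≥ 1`, the `n`-fold amplification of each positive
element is properly infinite. -/
def WeaklyPurelyInfinite (A : Type*) [NonUnitalCStarAlgebra A] [PartialOrder A] : Prop :=
  ∃ n : ℕ, 0 < n ∧ ∀ h : A, 0 ≤ h → AmpProperlyInfinite n h

/-- `A` is strongly purely infinite (Kirchberg-Sierakowski form). -/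
def StronglyPurelyInfinite (A : Type*) [NonUnitalCStarAlgebra A] [PartialOrder A] : Prop :=
  ∀ x y : A, 0 ≤ x → 0 ≤ y → ∀ ε > (0 : ℝ), ∃ s t : A,
    ‖star s * (x * x) * s - x * x‖ < ε ∧ ‖star t * (y * y) * t - y * y‖ < ε ∧
      ‖star s * x * y * t‖ < ε

/-- The closed two-sided ideals of `A` are linearly ordered by inclusion. -/
def IdealsLinearlyOrdered (A : Type*) [NonUnitalCStarAlgebra A] : Prop :=
  ∀ I J : TwoSidedIdeal A, IsClosed (I : Set A) → IsClosed (J : Set A) → I ≤ J ∨ J ≤ I

end Vale.Agent.Lib.P133
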