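import Mathlib
import Vale.Agent.Lib.P133.Defs

namespace Vale.Agent.Lib.P133

open Filter Topology

variable {A : Type*} [NonUnitalCStarAlgebra A]

/-- Cuntz subequivalence for diagonal matrices given by finite tuples. -/
def CLE {ι κ : Type*} [Fintype κ] [DecidableEq ι] (u : ι → A) (v : κ → A) : Prop :=
  ∀ ε > (0 : ℝ), ∃ x : κ → ι → A, ∀ a b : ι,
    ‖∑ c, star (x c a) * v c * x c b - (if a = b then u a else 0)‖ < ε

section trans

variable {ι κ μ : Type*} [Fintype κ] [Fintype μ] [DecidableEq ι] [DecidableEq κ]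

lemma CLE.trans [Fintype ι] {u : ι → A} {v : κ → A} {w : μ → A} (h₁ : CLE u v) (h₂ : CLE v w) :
    CLE u w := by
  intro ε hε
  obtain ⟨x, hx⟩ := h₁ (ε / 2) (by positivity)
  -- the bound for the error coming from `w`
  set C : ℝ := ∑ a, ∑ b, ∑ d, ∑ e, ‖x d a‖ * ‖x e b‖ with hC
  have hC0 : 0 ≤ C := by
    apply Finset.sum_nonneg; intro a _
    apply Finset.sum_nonneg; intro b _
    apply Finset.sum_nonneg; intro d _
    apply Finset.sum_nonneg; intro e _
    positivity
  obtain ⟨y, hy⟩ := h₂ (ε / 2 / (C + 1)) (by positivity)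
  refine ⟨fun c a => ∑ d, y c d * x d a, fun a b => ?_⟩
  have key : ∑ c, star (∑ d, y c d * x d a) * w c * (∑ e, y c e * x e b)
      = ∑ d, ∑ e, star (x d a) * (∑ c, star (y c d) * w c * y c e) * x e b := by
    calc ∑ c, star (∑ d, y c d * x d a) * w c * (∑ e, y c e * x e b)
        = ∑ c, ∑ d, ∑ e, star (x d a) * (star (y c d) * w c * y c e) * x e b := by
          refine Finset.sum_congr rfl fun c _ => ?_
          rw [star_sum, Finset.sum_mul, Finset.sum_mul]
          refine Finset.sum_congr rfl fun d _ => ?_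
          rw [Finset.mul_sum]
          refine Finset.sum_congr rfl fun e _ => ?_
          rw [star_mul]
          noncomm_ring
      _ = ∑ d, ∑ c, ∑ e, star (x d a) * (star (y c d) * w c * y c e) * x e b := Finset.sum_comm
      _ = ∑ d, ∑ e, ∑ c, star (x d a) * (star (y c d) * w c * y c e) * x e b :=
          Finset.sum_congr rfl fun d _ => Finset.sum_comm
      _ = ∑ d, ∑ e, star (x d a) * (∑ c, star (y c d) * w c * y c e) * x e b := by
          refine Finset.sum_congr rfl fun d _ => Finset.sum_congr rfl fun e _ => ?_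
          rw [Finset.mul_sum, Finset.sum_mul]
  have key2 : ∑ d, ∑ e, star (x d a) * (∑ c, star (y c d) * w c * y c e) * x e b
      = (∑ d, star (x d a) * v d * x d b)
        + ∑ d, ∑ e, star (x d a) *
            (∑ c, star (y c d) * w c * y c e - (if d = e then v d else 0)) * x e b := by
    have : ∀ d e, star (x d a) * (∑ c, star (y c d) * w c * y c e) * x e b
        = star (x d a) * (if d = e then v d else 0) * x e b + star (x d a) *
            (∑ c, star (y c d) * w c * y c e - (if d = e then v d else 0)) * x e b := by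
      intro d e
      noncomm_ring
    simp only [this, Finset.sum_add_distrib]
    congr 1
    refine Finset.sum_congr rfl fun d _ => ?_
    simp [apply_ite, ite_mul]
  rw [key, key2]
  have hE : ‖∑ d, ∑ e, star (x d a) *
      (∑ c, star (y c d) * w c * y c e - (if d = e then v d else 0)) * x e b‖
        ≤ ∑ d, ∑ e, ‖x d a‖ * ‖x e b‖ * (ε / 2 / (C + 1)) := by
    refine (norm_sum_le _ _).trans (Finset.sum_le_sum fun d _ => ?_)
    refine (norm_sum_le _ _).trans (Finset.sum_le_sum fun e _ => ?_)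
    calc ‖star (x d a) * (∑ c, star (y c d) * w c * y c e - (if d = e then v d else 0)) * x e b‖
        ≤ ‖star (x d a)‖ * ‖(∑ c, star (y c d) * w c * y c e - (if d = e then v d else 0))‖
            * ‖x e b‖ := norm_mul₃_le
      _ ≤ ‖x d a‖ * (ε / 2 / (C + 1)) * ‖x e b‖ := by
          rw [norm_star]
          gcongr
          exact (hy d e).le
      _ = ‖x d a‖ * ‖x e b‖ * (ε / 2 / (C + 1)) := by ring
  have hC' : ∑ d, ∑ e, ‖x d a‖ * ‖x e b‖ ≤ C := by
    have h1 : ∑ d, ∑ e, ‖x d a‖ * ‖x e b‖ ≤ ∑ b', ∑ d, ∑ e, ‖x d a‖ * ‖x e b'‖ := by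
      refine Finset.single_le_sum (f := fun b' => ∑ d, ∑ e, ‖x d a‖ * ‖x e b'‖) (fun b' _ => ?_)
        (Finset.mem_univ b)
      apply Finset.sum_nonneg; intro d _
      apply Finset.sum_nonneg; intro e _
      positivity
    refine h1.trans ?_
    refine Finset.single_le_sum (f := fun a' => ∑ b', ∑ d, ∑ e, ‖x d a'‖ * ‖x e b'‖)
      (fun a' _ => ?_) (Finset.mem_univ a)
    apply Finset.sum_nonneg; intro b' _
    apply Finset.sum_nonneg; intro d _
    apply Finset.sum_nonneg; intro e _
    positivity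
  have hE2 : ∑ d, ∑ e, ‖x d a‖ * ‖x e b‖ * (ε / 2 / (C + 1)) ≤ ε / 2 := by
    have : ∑ d, ∑ e, ‖x d a‖ * ‖x e b‖ * (ε / 2 / (C + 1))
        = (∑ d, ∑ e, ‖x d a‖ * ‖x e b‖) * (ε / 2 / (C + 1)) := by
      simp only [Finset.sum_mul]
    rw [this]
    calc (∑ d, ∑ e, ‖x d a‖ * ‖x e b‖) * (ε / 2 / (C + 1))
        ≤ C * (ε / 2 / (C + 1)) := by gcongr
      _ ≤ (C + 1) * (ε / 2 / (C + 1)) := by gcongr; linarith
      _ = ε / 2 := by field_simp
  have hx' := hx a b
  have : (∑ d, star (x d a) * v d * x d b) + (∑ d, ∑ e, star (x d a) *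
      (∑ c, star (y c d) * w c * y c e - (if d = e then v d else 0)) * x e b)
        - (if a = b then u a else 0)
      = ((∑ d, star (x d a) * v d * x d b) - (if a = b then u a else 0))
        + (∑ d, ∑ e, star (x d a) *
      (∑ c, star (y c d) * w c * y c e - (if d = e then v d else 0)) * x e b) := by abel
  rw [this]
  calc _ ≤ _ := norm_add_le _ _
    _ < ε / 2 + ε / 2 := by
      apply add_lt_add_of_lt_of_le hx'
      exact hE.trans hE2
    _ = ε := by ring

end trans

section basic

variable [PartialOrder A] [StarOrderedRing A]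

lemma exists_approx_unit {ι : Type*} [Finite ι] (u : ι → A) {ε : ℝ} (hε : 0 < ε) :
    ∃ e : A, ∀ a, ‖star e * u a * e - u a‖ < ε := by
  have hl := CStarAlgebra.increasingApproximateUnit A
  have := hl.neBot
  have h : ∀ a, ∀ᶠ e in CStarAlgebra.approximateUnit A, ‖star e * u a * e - u a‖ < ε := by
    intro a
    have h1 : ∀ᶠ e in CStarAlgebra.approximateUnit A, ‖e * u a - u a‖ < ε / 2 := by
      have := hl.tendsto_mul_right (u a)
      rw [Metric.tendsto_nhds] at this
      filter_upwards [this (ε / 2) (by positivity)] with e he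
      rwa [dist_eq_norm] at he
    have h2 : ∀ᶠ e in CStarAlgebra.approximateUnit A, ‖u a * e - u a‖ < ε / 2 := by
      have := hl.tendsto_mul_left (u a)
      rw [Metric.tendsto_nhds] at this
      filter_upwards [this (ε / 2) (by positivity)] with e he
      rwa [dist_eq_norm] at he
    filter_upwards [h1, h2, hl.eventually_star_eq, hl.eventually_norm] with e h1 h2 h3 h4
    rw [h3]
    have : e * u a * e - u a = (e * u a - u a) * e + (u a * e - u a) := by noncomm_ring
    rw [this]
    calc _ ≤ ‖(e * u a - u a) * e‖ + ‖u a * e - u a‖ := norm_add_le _ _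
      _ ≤ ‖e * u a - u a‖ * ‖e‖ + ‖u a * e - u a‖ := by gcongr; exact norm_mul_le _ _
      _ ≤ ‖e * u a - u a‖ * 1 + ‖u a * e - u a‖ := by gcongr
      _ < ε / 2 * 1 + ε / 2 := by rw [mul_one, mul_one]; gcongr
      _ = ε := by ring
  have h' : ∀ᶠ e in CStarAlgebra.approximateUnit A, ∀ a, ‖star e * u a * e - u a‖ < ε :=
    Filter.eventually_all.mpr h
  exact h'.exists

lemma CLE.of_injective {ι κ : Type*} [Fintype κ] [Finite ι] [DecidableEq ι] [DecidableEq κ]
    (f : ι → κ) (hf : Function.Injective f) (v : κ → A) : CLE (v ∘ f) v := by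
  intro ε hε
  obtain ⟨e, he⟩ := exists_approx_unit (v ∘ f) hε
  refine ⟨fun c a => if c = f a then e else 0, fun a b => ?_⟩
  have : ∑ c, star (if c = f a then e else 0) * v c * (if c = f b then e else 0)
      = if a = b then star e * v (f a) * e else 0 := by
    rw [Finset.sum_eq_single (f a)]
    · by_cases hab : a = b
      · subst hab; simp
      · have : f a ≠ f b := fun h => hab (hf h)
        simp [this, hab]
    · intro c _ hc
      simp [hc]
    · simp
  rw [this]
  by_cases hab : a = b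
  · subst hab
    simpa using he a
  · simpa [hab] using hε

lemma CLE.refl {ι : Type*} [Fintype ι] [DecidableEq ι] (u : ι → A) : CLE u u :=
  CLE.of_injective id Function.injective_id u

end basic

section ops

variable {ι ι' κ κ' : Type*} [Fintype κ] [Fintype κ'] [DecidableEq ι] [DecidableEq ι']

lemma CLE.sumElim {u : ι → A} {v : κ → A} {u' : ι' → A} {v' : κ' → A} (h : CLE u v)
    (h' : CLE u' v') : CLE (Sum.elim u u') (Sum.elim v v') := by
  intro ε hε
  obtain ⟨x, hx⟩ := h ε hε
  obtain ⟨x', hx'⟩ := h' ε hε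
  refine ⟨Sum.elim (fun c => Sum.elim (x c) 0) (fun c => Sum.elim 0 (x' c)), ?_⟩
  rintro (a | a) (b | b)
  · simpa [Fintype.sum_sum_type] using hx a b
  · simpa [Fintype.sum_sum_type] using hε
  · simpa [Fintype.sum_sum_type] using hε
  · simpa [Fintype.sum_sum_type] using hx' a b

lemma CLE.prod (μ : Type*) [Fintype μ] [DecidableEq μ] {u : ι → A} {v : κ → A} (h : CLE u v) :
    CLE (fun p : ι × μ => u p.1) (fun p : κ × μ => v p.1) := by
  intro ε hε
  obtain ⟨x, hx⟩ := h ε hε
  refine ⟨fun c a => if c.2 = a.2 then x c.1 a.1 else 0, ?_⟩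
  rintro ⟨a, m₁⟩ ⟨b, m₂⟩
  have : ∑ c : κ × μ, star (if c.2 = m₁ then x c.1 a else 0) * v c.1 *
        (if c.2 = m₂ then x c.1 b else 0)
      = if m₁ = m₂ then ∑ c, star (x c a) * v c * x c b else 0 := by
    rw [Fintype.sum_prod_type]
    simp only
    by_cases hm : m₁ = m₂
    · subst hm
      simp only [if_true]
      refine Finset.sum_congr rfl fun c _ => ?_
      rw [Finset.sum_eq_single m₁]
      · simp
      · intro m _ hm
        simp [hm]
      · simp
    · simp only [hm, if_false]
      refine Finset.sum_eq_zero fun c _ => ?_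
      refine Finset.sum_eq_zero fun m _ => ?_
      by_cases h1 : m = m₁
      · subst h1
        simp [hm]
      · simp [h1]
  simp only [this]
  by_cases hm : m₁ = m₂
  · subst hm
    simpa using hx a b
  · simpa [hm] using hε

lemma CLE.reindex {u : ι → A} {v : κ → A} (e : ι' ≃ ι) (e' : κ' ≃ κ) (h : CLE u v) :
    CLE (u ∘ e) (v ∘ e') := by
  intro ε hε
  obtain ⟨x, hx⟩ := h ε hε
  refine ⟨fun c a => x (e' c) (e a), fun a b => ?_⟩
  have := hx (e a) (e b)
  rw [← Equiv.sum_comp e'] at this
  simpa [e.injective.eq_iff] using this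

lemma CLE.of_approx {u : ι → A} {v : κ → A}
    (h : ∀ ε > (0 : ℝ), ∃ u' : ι → A, (∀ a, ‖u' a - u a‖ < ε) ∧ CLE u' v) : CLE u v := by
  intro ε hε
  obtain ⟨u', hu', hc⟩ := h (ε / 2) (by positivity)
  obtain ⟨x, hx⟩ := hc (ε / 2) (by positivity)
  refine ⟨x, fun a b => ?_⟩
  have h1 := hx a b
  have : ∑ c, star (x c a) * v c * x c b - (if a = b then u a else 0)
      = (∑ c, star (x c a) * v c * x c b - (if a = b then u' a else 0))
        + ((if a = b then u' a else 0) - (if a = b then u a else 0)) := by abel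
  rw [this]
  have h2 : ‖(if a = b then u' a else 0) - (if a = b then u a else 0)‖ < ε / 2 := by
    by_cases hab : a = b
    · simpa [hab] using hu' b
    · simpa [hab] using half_pos hε
  calc _ ≤ _ := norm_add_le _ _
    _ < ε / 2 + ε / 2 := add_lt_add h1 h2
    _ = ε := by ring

end ops

/-- The constant tuple: `m` copies of `y`. -/
def Amp (y : A) (m : ℕ) : Fin m → A := fun _ => y

lemma cle_one_iff {κ : Type*} [Fintype κ] (a : A) (v : κ → A) :
    CLE (Amp a 1) v ↔ ∀ ε > (0 : ℝ), ∃ w : κ → A, ‖∑ c, star (w c) * v c * w c - a‖ < ε := by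
  constructor
  · intro h ε hε
    obtain ⟨x, hx⟩ := h ε hε
    refine ⟨fun c => x c 0, ?_⟩
    simpa [Amp] using hx 0 0
  · intro h ε hε
    obtain ⟨w, hw⟩ := h ε hε
    refine ⟨fun c _ => w c, fun a b => ?_⟩
    have hab : a = b := Subsingleton.elim _ _
    simpa [hab, Amp] using hw

lemma ampProperlyInfinite_iff (n : ℕ) (h : A) :
    AmpProperlyInfinite n h ↔ CLE (Amp h (2 * n)) (Amp h n) := Iff.rfl

section amp

lemma amp_le [PartialOrder A] [StarOrderedRing A] (y : A) {m m' : ℕ} (hm : m ≤ m') :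
    CLE (Amp y m) (Amp y m') :=
  CLE.of_injective (v := Amp y m') (Fin.castLE hm) (Fin.castLE_injective hm)

lemma amp_add {y h : A} {m m' k k' : ℕ} (h₁ : CLE (Amp y m) (Amp h k))
    (h₂ : CLE (Amp y m') (Amp h k')) : CLE (Amp y (m + m')) (Amp h (k + k')) := by
  have := (h₁.sumElim h₂).reindex finSumFinEquiv.symm finSumFinEquiv.symm
  convert this using 1
  · funext i
    rcases h : finSumFinEquiv.symm i with a | a <;> simp [Amp, h]
  · funext i
    rcases h : finSumFinEquiv.symm i with a | a <;> simp [Amp, h]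

lemma amp_mul {y h : A} {m k : ℕ} (r : ℕ) (h₁ : CLE (Amp y m) (Amp h k)) :
    CLE (Amp y (m * r)) (Amp h (k * r)) := by
  have := (h₁.prod (Fin r)).reindex finProdFinEquiv.symm finProdFinEquiv.symm
  exact this

lemma amp_mono [PartialOrder A] [StarOrderedRing A] {y h : A} {m m' k : ℕ} (hm : m' ≤ m) (h₁ : CLE (Amp y m) (Amp h k)) :
    CLE (Amp y m') (Amp h k) := (amp_le y hm).trans h₁

/-- Iterating: if `y^{⊕2n} ≾ y^{⊕n}` then `y^{⊕ 2^s n} ≾ y^{⊕ n}`. -/
lemma amp_iter [PartialOrder A] [StarOrderedRing A] {y : A} {n : ℕ} (h : CLE (Amp y (2 * n)) (Amp y n)) (s : ℕ) :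
    CLE (Amp y (2 ^ s * n)) (Amp y n) := by
  induction s with
  | zero =>
    have e : 2 ^ 0 * n = n := by simp
    rw [e]
    exact CLE.refl (Amp y n)
  | succ s ih =>
    have h2 : CLE (Amp y (2 ^ s * n + 2 ^ s * n)) (Amp y (n + n)) := amp_add ih ih
    have h3 : CLE (Amp y (2 ^ (s + 1) * n)) (Amp y (2 * n)) := by
      have e1 : 2 ^ (s + 1) * n = 2 ^ s * n + 2 ^ s * n := by ring
      have e2 : 2 * n = n + n := by ring
      rw [e1, e2]
      exact h2
    exact h3.trans h

end amp

end Vale.Agent.Lib.P133
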