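import Mathlib
import Vale.Agent.Lib.P133.CLE

namespace Vale.Agent.Lib.P133

open scoped CStarAlgebra
open Unitization

variable {A : Type*} [NonUnitalCStarAlgebra A]

lemma exists_inr_eq_mul (s : A⁺¹) (a : A) : ∃ a' : A, (a' : A⁺¹) = s * (a : A⁺¹) := by
  refine ⟨s.fst • a + s.snd * a, ?_⟩
  ext <;> simp

lemma exists_inr_eq_mul' (s : A⁺¹) (a : A) : ∃ a' : A, (a' : A⁺¹) = (a : A⁺¹) * s := by
  refine ⟨s.fst • a + a * s.snd, ?_⟩
  ext <;> simp

variable [PartialOrder A] [StarOrderedRing A]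

/-- If `0 ≤ x ≤ y` then `x` is Cuntz below `y`. -/
lemma exists_conj_of_le {x y : A} (hx : 0 ≤ x) (hxy : x ≤ y) {ε : ℝ} (hε : 0 < ε) :
    ∃ w : A, ‖star w * y * w - x‖ < ε := by
  have hy : 0 ≤ y := hx.trans hxy
  set r : ℝ := ε / 2 with hr
  have hr0 : 0 < r := by positivity
  set Y : A⁺¹ := (y : A⁺¹) with hY
  have hY0 : 0 ≤ Y := inr_nonneg_iff.mpr hy
  have hYsa : IsSelfAdjoint Y := hY0.isSelfAdjoint
  set g : ℝ → ℝ := fun t => (Real.sqrt (|t| + r))⁻¹ with hg
  have hpos : ∀ t : ℝ, 0 < Real.sqrt (|t| + r) := fun t => Real.sqrt_pos.mpr (by positivity)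
  have hgc : Continuous g :=
    Continuous.inv₀ (by fun_prop) (fun t => (hpos t).ne')
  set S : A⁺¹ := cfc g Y with hS
  have hSsa : IsSelfAdjoint S := cfc_predicate g Y
  have hg2 : ∀ t : ℝ, 0 ≤ t → g t * t * g t = 1 - r * (g t * g t) := by
    intro t ht
    have h1 : Real.sqrt (|t| + r) * Real.sqrt (|t| + r) = t + r := by
      rw [Real.mul_self_sqrt (by positivity), abs_of_nonneg ht]
    have h2 := (hpos t).ne'
    simp only [hg]
    field_simp
    nlinarith [h1]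
  have hspec : ∀ t ∈ spectrum ℝ Y, 0 ≤ t := by
    intro t ht
    exact spectrum_nonneg_of_nonneg hY0 ht
  have hT : S * Y * S = cfc (fun t => g t * t * g t) Y := by
    rw [cfc_mul _ _ Y (by fun_prop) (by fun_prop), cfc_mul _ _ Y (by fun_prop) (by fun_prop),
      cfc_id' ℝ Y]
  have hT1 : S * Y * S = 1 - r • (S * S) := by
    rw [hT, ← cfc_congr (f := fun t => 1 - r * (g t * g t))
      (fun t ht => (hg2 t (hspec t ht)).symm)]
    rw [cfc_sub _ _ Y (by fun_prop) (by fun_prop), cfc_const_one ℝ Y,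
      cfc_const_mul _ _ Y (by fun_prop), cfc_mul _ _ Y (by fun_prop) (by fun_prop)]
  have hTn : ‖S * Y * S‖ ≤ 1 := by
    rw [hT]
    refine norm_cfc_le (by norm_num) fun t ht => ?_
    have ht0 := hspec t ht
    rw [hg2 t ht0, Real.norm_eq_abs]
    have h1 : g t * g t = (t + r)⁻¹ := by
      simp only [hg]
      rw [← mul_inv, Real.mul_self_sqrt (by positivity), abs_of_nonneg ht0]
    rw [h1]
    have h2 : 0 ≤ r * (t + r)⁻¹ := by positivity
    have h3 : r * (t + r)⁻¹ ≤ 1 := by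
      rw [← div_eq_mul_inv, div_le_one (by positivity)]
      linarith
    rw [abs_le]
    constructor <;> linarith
  obtain ⟨w, hw⟩ := exists_inr_eq_mul S (CFC.sqrt x)
  set X : A⁺¹ := ((CFC.sqrt x : A) : A⁺¹) with hX
  have hXX : X * X = (x : A⁺¹) := by
    rw [hX, ← inr_mul, CFC.sqrt_mul_sqrt_self x hx]
  have hXsa : star X = X := by
    rw [hX, ← inr_star, (CFC.sqrt_nonneg x).isSelfAdjoint.star_eq]
  refine ⟨w, ?_⟩
  have hcalc : ((star w * y * w - x : A) : A⁺¹) = - (r • (X * (S * S) * X)) := by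
    have : ((star w * y * w - x : A) : A⁺¹) = star (w : A⁺¹) * Y * (w : A⁺¹) - (x : A⁺¹) := by
      simp [hY]
    rw [this, hw, star_mul, hXsa, hSsa.star_eq]
    have : X * S * Y * (S * X) = X * (S * Y * S) * X := by noncomm_ring
    rw [this, hT1, ← hXX]
    simp only [mul_sub, sub_mul, mul_one, mul_smul_comm, smul_mul_assoc]
    abel
  have hn : ‖X * (S * S) * X‖ ≤ 1 := by
    have h1 : X * (S * S) * X = star (S * X) * (S * X) := by
      rw [star_mul, hXsa, hSsa.star_eq]; noncomm_ring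
    rw [h1, CStarRing.norm_star_mul_self, ← CStarRing.norm_self_mul_star]
    have h2 : (S * X) * star (S * X) = S * (x : A⁺¹) * S := by
      rw [star_mul, hXsa, hSsa.star_eq, ← hXX]; noncomm_ring
    rw [h2]
    have h3 : S * (x : A⁺¹) * S ≤ S * Y * S := by
      have := star_left_conjugate_le_conjugate
        ((inr_le_iff x y hx.isSelfAdjoint hy.isSelfAdjoint).mpr hxy) S
      rwa [hSsa.star_eq] at this
    have h4 : 0 ≤ S * (x : A⁺¹) * S := by
      have := star_left_conjugate_nonneg (inr_nonneg_iff.mpr hx) S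
      rwa [hSsa.star_eq] at this
    exact (CStarAlgebra.norm_le_norm_of_nonneg_of_le h4 h3).trans hTn
  have : ‖star w * y * w - x‖ = ‖((star w * y * w - x : A) : A⁺¹)‖ := (norm_inr _).symm
  rw [this, hcalc, norm_neg, norm_smul, Real.norm_of_nonneg hr0.le]
  calc r * ‖X * (S * S) * X‖ ≤ r * 1 := by gcongr
    _ < ε := by rw [mul_one, hr]; linarith

/-- The cut-down `(a - δ)₊` of `a`. -/
noncomputable def cut (δ : ℝ) (a : A) : A := cfcₙ (fun t : ℝ => max (t - δ) 0) a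

lemma cut_nonneg (δ : ℝ) (a : A) : 0 ≤ cut δ a := by
  unfold cut
  exact cfcₙ_nonneg fun t _ => le_max_right _ _

lemma norm_cut_sub_le {δ : ℝ} (hδ : 0 ≤ δ) {a : A} (ha : 0 ≤ a) : ‖cut δ a - a‖ ≤ δ := by
  have hf0 : (fun t : ℝ => max (t - δ) 0) 0 = 0 := by simp [hδ]
  have hc : Continuous (fun t : ℝ => max (t - δ) 0) := by fun_prop
  have hsa : IsSelfAdjoint a := ha.isSelfAdjoint
  have : cut δ a - a = cfcₙ (fun t : ℝ => max (t - δ) 0 - t) a := by
    unfold cut
    rw [cfcₙ_sub (fun t : ℝ => max (t - δ) 0) (fun t => t) a (hf0 := hf0), cfcₙ_id' ℝ a]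
  rw [this]
  refine norm_cfcₙ_le fun t ht => ?_
  have ht0 : 0 ≤ t := NonnegSpectrumClass.quasispectrum_nonneg_of_nonneg a ha t ht
  rw [Real.norm_eq_abs, abs_le]
  constructor
  · have := le_max_left (t - δ) 0
    linarith
  · have : max (t - δ) 0 ≤ t := max_le (by linarith) ht0
    linarith

lemma cut_cut {s t : ℝ} (hs : 0 ≤ s) (ht : 0 ≤ t) {a : A} (ha : 0 ≤ a) :
    cut s (cut t a) = cut (s + t) a := by
  unfold cut
  have hf : (fun x : ℝ => max (x - t) 0) 0 = 0 := by simp [ht]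
  have hf' : (fun x : ℝ => max (x - s) 0) 0 = 0 := by simp [hs]
  rw [← cfcₙ_comp' (fun x : ℝ => max (x - s) 0) (fun x : ℝ => max (x - t) 0) a
    (by fun_prop) hf' (by fun_prop) hf]
  refine cfcₙ_congr fun x hx => ?_
  have hx0 : 0 ≤ x := NonnegSpectrumClass.quasispectrum_nonneg_of_nonneg a ha x hx
  rcases le_total (x - t) 0 with h | h
  · rw [max_eq_right h]
    have h1 : (0 : ℝ) - s ≤ 0 := by linarith
    have h2 : x - (s + t) ≤ 0 := by linarith
    rw [max_eq_right h1, max_eq_right h2]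
  · rw [max_eq_left h]
    congr 1
    ring

/-- Rørdam's lemma: if `a ≤ b + δ` (in the unitization) and `δ < δ'` then `(a - δ')₊` is Cuntz
below `b`. -/
lemma exists_conj_cut_of_le {a b : A} (ha : 0 ≤ a) (hb : 0 ≤ b) {δ δ' : ℝ} (hδ : 0 ≤ δ)
    (hδ' : δ < δ') (h : (a : A⁺¹) ≤ (b : A⁺¹) + algebraMap ℝ A⁺¹ δ) {ε : ℝ} (hε : 0 < ε) :
    ∃ w : A, ‖star w * b * w - cut δ' a‖ < ε := by
  have hδ'0 : 0 < δ' := lt_of_le_of_lt hδ hδ'
  have hgap : 0 < δ' - δ := by linarith
  set G : ℝ → ℝ := fun t => max (t - δ') 0 / max (t - δ) (δ' - δ) with hG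
  have hden : ∀ t, 0 < max (t - δ) (δ' - δ) := fun t => lt_max_of_lt_right hgap
  have hGc : Continuous G := Continuous.div (by fun_prop) (by fun_prop) (fun t => (hden t).ne')
  have hG0 : ∀ t, 0 ≤ G t := fun t => div_nonneg (le_max_right _ _) (hden t).le
  set g : ℝ → ℝ := fun t => Real.sqrt (G t) with hg
  have hgc : Continuous g := by fun_prop
  have hg0 : g 0 = 0 := by
    have : max ((0 : ℝ) - δ') 0 = 0 := max_eq_right (by linarith)
    simp only [hg, hG]
    rw [this]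
    simp
  have hgg : ∀ t, g t * (t - δ) * g t = max (t - δ') 0 := by
    intro t
    have h1 : g t * g t = G t := Real.mul_self_sqrt (hG0 t)
    have : g t * (t - δ) * g t = (g t * g t) * (t - δ) := by ring
    rw [this, h1]
    simp only [hG]
    rcases le_total (t - δ') 0 with h2 | h2
    · rw [max_eq_right h2]; simp
    · have h3 : δ' - δ ≤ t - δ := by linarith
      rw [max_eq_left h2, max_eq_left h3]
      have : t - δ ≠ 0 := by linarith
      field_simp
  set a' : A⁺¹ := (a : A⁺¹) with ha'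
  have ha'0 : 0 ≤ a' := inr_nonneg_iff.mpr ha
  have ha'sa : IsSelfAdjoint a' := ha'0.isSelfAdjoint
  set g₀ : A := cfcₙ g a with hg₀
  have hg₀sa : IsSelfAdjoint g₀ := cfcₙ_predicate g a
  have hGa : cfc g a' = (g₀ : A⁺¹) := (real_cfcₙ_eq_cfc_inr a g hg0).symm
  have hcut : ((cut δ' a : A) : A⁺¹) = cfc (fun t : ℝ => max (t - δ') 0) a' := by
    unfold cut
    exact real_cfcₙ_eq_cfc_inr a _ (by simp [hδ'0.le])
  have hE : (g₀ : A⁺¹) * (a' - algebraMap ℝ A⁺¹ δ) * (g₀ : A⁺¹) = ((cut δ' a : A) : A⁺¹) := by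
    rw [hcut, ← hGa]
    simp_rw [← hgg]
    rw [cfc_mul _ _ a' (by fun_prop) (by fun_prop), cfc_mul _ _ a' (by fun_prop) (by fun_prop),
      cfc_sub _ _ a' (by fun_prop) (by fun_prop), cfc_id' ℝ a', cfc_const δ a']
  have hle : a' - algebraMap ℝ A⁺¹ δ ≤ (b : A⁺¹) := by
    rw [sub_le_iff_le_add]; exact h
  have hle2 : cut δ' a ≤ g₀ * b * g₀ := by
    have hconj := star_left_conjugate_le_conjugate hle (g₀ : A⁺¹)
    rw [← inr_star, hg₀sa.star_eq, hE] at hconj
    have hc : IsSelfAdjoint (cut δ' a) := (cut_nonneg δ' a).isSelfAdjoint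
    have hd : IsSelfAdjoint (g₀ * b * g₀) := by
      have := IsSelfAdjoint.conjugate hb.isSelfAdjoint g₀
      rwa [hg₀sa.star_eq] at this
    rw [← inr_le_iff _ _ hc hd]
    simpa using hconj
  obtain ⟨w, hw⟩ := exists_conj_of_le (cut_nonneg δ' a) hle2 hε
  refine ⟨g₀ * w, ?_⟩
  have : star (g₀ * w) * b * (g₀ * w) = star w * (g₀ * b * g₀) * w := by
    rw [star_mul, hg₀sa.star_eq]; noncomm_ring
  rwa [this]

/-- If `a` is within `δ` of a finite sum `∑ uᵢ b vᵢ` then `(a - δ')₊` is Cuntz below `b ⊗ 1_M`. -/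
lemma cle_cut_of_norm_le {M : ℕ} {a b : A} (ha : 0 ≤ a) (hb : 0 ≤ b) (u v : Fin M → A)
    {δ δ' : ℝ} (hδ : 0 ≤ δ) (hδ' : δ < δ') (h : ‖a - ∑ i, u i * b * v i‖ ≤ δ) :
    CLE (Amp (cut δ' a) 1) (Amp b M) := by
  have hbsa : star b = b := hb.isSelfAdjoint.star_eq
  set s : A := ∑ i, u i * b * v i with hs
  set w : Fin M → A := fun i => (2⁻¹ : ℂ) • (u i + star (v i)) with hw
  set q : Fin M → A := fun i => (2⁻¹ : ℂ) • (u i - star (v i)) with hq
  set R : A := ∑ i, w i * b * star (w i) with hR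
  set Q : A := ∑ i, q i * b * star (q i) with hQ
  have hR0 : 0 ≤ R := Finset.sum_nonneg fun i _ => star_right_conjugate_nonneg hb (w i)
  have hQ0 : 0 ≤ Q := Finset.sum_nonneg fun i _ => star_right_conjugate_nonneg hb (q i)
  have hstars : star s = ∑ i, star (v i) * b * star (u i) := by
    rw [hs, star_sum]
    refine Finset.sum_congr rfl fun i _ => ?_
    rw [star_mul, star_mul, hbsa]; noncomm_ring
  have hRQ : R = Q + (2⁻¹ : ℂ) • (s + star s) := by
    rw [hstars, hs, hR, hQ, ← Finset.sum_add_distrib, Finset.smul_sum, ← Finset.sum_add_distrib]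
    refine Finset.sum_congr rfl fun i _ => ?_
    simp only [hw, hq, star_smul, star_add, star_sub, star_star, smul_mul_assoc, mul_smul_comm,
      smul_smul, smul_add, smul_sub, add_mul, mul_add, sub_mul, mul_sub, star_inv₀, star_ofNat]
    have e4 : (2⁻¹ : ℂ) * 2⁻¹ = (4⁻¹ : ℂ) := by norm_num
    have e2 : (2⁻¹ : ℂ) = (4⁻¹ : ℂ) + 4⁻¹ := by norm_num
    simp only [e4, smul_sub, smul_add]
    rw [e2]
    simp only [add_smul]
    abel
  have hmid : (a : A⁺¹) ≤ ((R : A) : A⁺¹) + algebraMap ℝ A⁺¹ δ := by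
    set T : A := a - (2⁻¹ : ℂ) • (s + star s) with hT
    have hTsa : IsSelfAdjoint T := by
      have h1 : IsSelfAdjoint a := ha.isSelfAdjoint
      have h2 : IsSelfAdjoint (s + star s) := IsSelfAdjoint.add_star_self s
      have h3 : IsSelfAdjoint ((2⁻¹ : ℂ) • (s + star s)) := by
        rw [IsSelfAdjoint, star_smul, h2.star_eq]; simp
      exact h1.sub h3
    have hTn : ‖T‖ ≤ δ := by
      have e : T = (2⁻¹ : ℂ) • (a - s) + (2⁻¹ : ℂ) • (a - star s) := by
        have e3 : a = (2⁻¹ : ℂ) • a + (2⁻¹ : ℂ) • a := by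
          rw [← add_smul]; norm_num
        rw [hT, smul_sub, smul_sub, smul_add]
        nth_rw 1 [e3]
        abel
      have h2 : ‖a - star s‖ ≤ δ := by
        have : a - star s = star (a - s) := by
          rw [star_sub, ha.isSelfAdjoint.star_eq]
        rw [this, norm_star]; exact h
      rw [e]
      calc _ ≤ ‖(2⁻¹ : ℂ) • (a - s)‖ + ‖(2⁻¹ : ℂ) • (a - star s)‖ := norm_add_le _ _
        _ = 2⁻¹ * ‖a - s‖ + 2⁻¹ * ‖a - star s‖ := by
            rw [norm_smul, norm_smul]; norm_num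
        _ ≤ 2⁻¹ * δ + 2⁻¹ * δ := by gcongr
        _ = δ := by ring
    have hTle : (T : A⁺¹) ≤ algebraMap ℝ A⁺¹ δ := by
      have h1 : IsSelfAdjoint (T : A⁺¹) := (isSelfAdjoint_inr (R := ℂ)).mpr hTsa
      have h2 := h1.le_algebraMap_norm_self
      rw [norm_inr] at h2
      refine h2.trans ?_
      have h3 : ‖T‖ • (1 : A⁺¹) ≤ δ • (1 : A⁺¹) := by
        gcongr
      simpa [Algebra.algebraMap_eq_smul_one] using h3
    have hQ' : ((2⁻¹ : ℂ) • (s + star s) : A) ≤ R := by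
      rw [hRQ]
      exact le_add_of_nonneg_left hQ0
    have hQ'' : (((2⁻¹ : ℂ) • (s + star s) : A) : A⁺¹) ≤ (R : A⁺¹) := by
      have h1 : IsSelfAdjoint (R : A) := hR0.isSelfAdjoint
      have h2 : IsSelfAdjoint ((2⁻¹ : ℂ) • (s + star s) : A) := by
        rw [IsSelfAdjoint, star_smul, (IsSelfAdjoint.add_star_self s).star_eq]; simp
      exact (inr_le_iff _ _ h2 h1).mpr hQ'
    have e : (a : A⁺¹) = (T : A⁺¹) + (((2⁻¹ : ℂ) • (s + star s) : A) : A⁺¹) := by
      rw [hT, ← inr_add]; simp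
    rw [e, add_comm (R : A⁺¹)]
    exact add_le_add hTle hQ''
  rw [cle_one_iff]
  intro ε hε
  obtain ⟨w₀, hw₀⟩ := exists_conj_cut_of_le ha hR0 hδ hδ' hmid hε
  refine ⟨fun c => star (w c) * w₀, ?_⟩
  have : ∑ c, star (star (w c) * w₀) * Amp b M c * (star (w c) * w₀) = star w₀ * R * w₀ := by
    rw [hR, Finset.mul_sum, Finset.sum_mul]
    refine Finset.sum_congr rfl fun c _ => ?_
    simp only [Amp, star_mul, star_star]
    noncomm_ring
  rwa [this]

end Vale.Agent.Lib.P133
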