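import Mathlib
import Vale.Agent.Lib.P133.Analysis

namespace Vale.Agent.Lib.P133

open scoped CStarAlgebra
open Unitization

variable {A : Type*} [NonUnitalCStarAlgebra A] [PartialOrder A] [StarOrderedRing A]

/-- The function `t ↦ t / max t m⁻¹`. -/
lemma exists_contraction (p : A) {η : ℝ} (hη : 0 < η) :
    ∃ (e : A) (Φ : A⁺¹), (e : A⁺¹) = ((star p * p : A) : A⁺¹) * Φ ∧ IsSelfAdjoint e ∧
      ‖(1 : A⁺¹) - (e : A⁺¹)‖ ≤ 1 ∧ ‖(p : A⁺¹) * ((1 : A⁺¹) - (e : A⁺¹))‖ < η := by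
  set Q : A := star p * p with hQ
  have hQ0 : 0 ≤ Q := star_mul_self_nonneg p
  set Q' : A⁺¹ := (Q : A⁺¹) with hQ'
  have hQ'0 : 0 ≤ Q' := inr_nonneg_iff.mpr hQ0
  have hQ'sa : IsSelfAdjoint Q' := hQ'0.isSelfAdjoint
  have hspec : ∀ t ∈ spectrum ℝ Q', 0 ≤ t := fun t ht => spectrum_nonneg_of_nonneg hQ'0 ht
  set r : ℝ := (η / 2) ^ 2 with hr
  have hr0 : 0 < r := by positivity
  set φ : ℝ → ℝ := fun t => (max t r)⁻¹ with hφ
  have hmax : ∀ t, 0 < max t r := fun t => lt_max_of_lt_right hr0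
  have hφc : Continuous φ := Continuous.inv₀ (by fun_prop) (fun t => (hmax t).ne')
  set f : ℝ → ℝ := fun t => t * φ t with hf
  have hfc : Continuous f := by fun_prop
  have hf0 : f 0 = 0 := by simp [hf]
  have hfb : ∀ t, 0 ≤ t → 0 ≤ f t ∧ f t ≤ 1 := by
    intro t ht
    constructor
    · exact mul_nonneg ht (inv_nonneg.mpr (hmax t).le)
    · simp only [hf, hφ]
      rw [← div_eq_mul_inv, div_le_one (hmax t)]
      exact le_max_left _ _
  set Φ : A⁺¹ := cfc φ Q' with hΦ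
  have hEdef : cfc f Q' = Q' * Φ := by
    have := cfc_mul (fun t : ℝ => t) φ Q' (by fun_prop) (by fun_prop)
    rw [cfc_id' ℝ Q'] at this
    exact this
  obtain ⟨e, he⟩ := exists_inr_eq_mul' Φ Q
  have hEe : (e : A⁺¹) = cfc f Q' := by rw [he, hEdef]
  have hEsa : IsSelfAdjoint (e : A⁺¹) := by rw [hEe]; exact cfc_predicate f Q'
  have hesa : IsSelfAdjoint e := (isSelfAdjoint_inr (R := ℂ)).mp hEsa
  have h1E : (1 : A⁺¹) - (e : A⁺¹) = cfc (fun t => 1 - f t) Q' := by
    rw [hEe, cfc_sub _ _ Q' (by fun_prop) (by fun_prop), cfc_const_one ℝ Q']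
  have h1n : ‖(1 : A⁺¹) - (e : A⁺¹)‖ ≤ 1 := by
    rw [h1E]
    refine norm_cfc_le zero_le_one fun t ht => ?_
    obtain ⟨h1, h2⟩ := hfb t (hspec t ht)
    rw [Real.norm_eq_abs, abs_le]
    constructor <;> linarith
  refine ⟨e, Φ, he, hesa, h1n, ?_⟩
  -- the C*-identity
  set D : A⁺¹ := (1 : A⁺¹) - (e : A⁺¹) with hD
  have hDsa : star D = D := by
    rw [hD, star_sub, star_one, hEsa.star_eq]
  have hC : ‖(p : A⁺¹) * D‖ * ‖(p : A⁺¹) * D‖ = ‖D * Q' * D‖ := by
    rw [← CStarRing.norm_star_mul_self, star_mul, hDsa, ← inr_star]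
    congr 1
    rw [hQ', hQ, inr_mul]
    noncomm_ring
  have hbound : ‖D * Q' * D‖ ≤ r := by
    have hexp : D * Q' * D = cfc (fun t => (1 - f t) * t * (1 - f t)) Q' := by
      rw [h1E]
      rw [cfc_mul _ _ Q' (by fun_prop) (by fun_prop), cfc_mul _ _ Q' (by fun_prop) (by fun_prop),
        cfc_id' ℝ Q']
    rw [hexp]
    refine norm_cfc_le hr0.le fun t ht => ?_
    have ht0 := hspec t ht
    obtain ⟨h1, h2⟩ := hfb t ht0
    rw [Real.norm_eq_abs]
    have hnn : 0 ≤ (1 - f t) * t * (1 - f t) := by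
      have : 0 ≤ 1 - f t := by linarith
      positivity
    rw [abs_of_nonneg hnn]
    rcases le_total t r with hle | hle
    · have h3 : 0 ≤ 1 - f t := by linarith
      have h4 : 1 - f t ≤ 1 := by linarith
      calc (1 - f t) * t * (1 - f t) ≤ 1 * t * 1 := by gcongr
        _ ≤ r := by linarith
    · have : f t = 1 := by
        simp only [hf, hφ]
        rw [max_eq_left hle]
        exact mul_inv_cancel₀ (by linarith)
      rw [this]
      simpa using hr0.le
  have hlt : ‖(p : A⁺¹) * D‖ * ‖(p : A⁺¹) * D‖ < η * η := by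
    rw [hC]
    calc _ ≤ r := hbound
      _ < η * η := by rw [hr]; nlinarith
  exact lt_of_mul_self_lt_mul_self₀ hη.le hlt

section closedIdeal

variable {L : TwoSidedIdeal A}

omit [PartialOrder A] [StarOrderedRing A] in
lemma mem_of_forall_approx (hL : IsClosed (L : Set A)) {x : A}
    (h : ∀ ε > (0 : ℝ), ∃ p ∈ L, ‖x - p‖ < ε) : x ∈ L := by
  have : x ∈ closure (L : Set A) := by
    rw [Metric.mem_closure_iff]
    intro ε hε
    obtain ⟨p, hp, hpx⟩ := h ε hε
    exact ⟨p, hp, by rwa [dist_eq_norm]⟩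
  rwa [hL.closure_eq] at this

lemma smul_mem_of_isClosed (hL : IsClosed (L : Set A)) (c : ℂ) {x : A} (hx : x ∈ L) : c • x ∈ L := by
  refine mem_of_forall_approx hL fun ε hε => ?_
  obtain ⟨e, he⟩ := exists_approx_unit (fun _ : Unit => x) (ε := ε / (‖c‖ + 1)) (by positivity)
  have he' := he ()
  refine ⟨c • (star e * x * e), ?_, ?_⟩
  · have : c • (star e * x * e) = (c • star e) * x * e := by simp [smul_mul_assoc]
    rw [this]
    exact L.mul_mem_right _ _ (L.mul_mem_left _ _ hx)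
  · rw [← smul_sub, norm_smul, norm_sub_rev]
    calc ‖c‖ * ‖star e * x * e - x‖ ≤ (‖c‖ + 1) * ‖star e * x * e - x‖ := by gcongr; linarith
      _ < (‖c‖ + 1) * (ε / (‖c‖ + 1)) := by gcongr
      _ = ε := by field_simp

lemma unit_mul_mem (hL : IsClosed (L : Set A)) {x y : A} (hx : x ∈ L) (s : A⁺¹)
    (hy : (y : A⁺¹) = (x : A⁺¹) * s) : y ∈ L := by
  have : y = s.fst • x + x * s.snd := by
    apply inr_injective (R := ℂ)
    rw [hy]
    ext <;> simp
  rw [this]
  exact L.add_mem (smul_mem_of_isClosed hL _ hx) (L.mul_mem_right _ _ hx)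

lemma star_mem_of_isClosed (hL : IsClosed (L : Set A)) {x : A} (hx : x ∈ L) : star x ∈ L := by
  refine mem_of_forall_approx hL fun ε hε => ?_
  obtain ⟨e, Φ, h1, h2, -, h4⟩ := exists_contraction x hε
  have he : e ∈ L := unit_mul_mem hL (L.mul_mem_left _ _ hx) Φ h1
  refine ⟨e * star x, L.mul_mem_right _ _ he, ?_⟩
  have : star x - e * star x = star (x - x * e) := by
    rw [star_sub, star_mul, h2.star_eq]
  rw [this, norm_star]
  have h5 : ((x - x * e : A) : A⁺¹) = (x : A⁺¹) * ((1 : A⁺¹) - (e : A⁺¹)) := by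
    simp [mul_sub]
  rw [← norm_inr (𝕜 := ℂ), h5]
  exact h4

/-- The distance to an ideal. -/
noncomputable def dI (L : TwoSidedIdeal A) (x : A) : ℝ := Metric.infDist x (L : Set A)

omit [PartialOrder A] [StarOrderedRing A] in
lemma dI_nonneg (x : A) : 0 ≤ dI L x := Metric.infDist_nonneg

omit [PartialOrder A] [StarOrderedRing A] in
lemma dI_le {x p : A} (hp : p ∈ L) : dI L x ≤ ‖x - p‖ := by
  rw [← dist_eq_norm]
  exact Metric.infDist_le_dist_of_mem hp

omit [PartialOrder A] [StarOrderedRing A] in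
lemma dI_le_norm (x : A) : dI L x ≤ ‖x‖ := by
  simpa using dI_le (L := L) (x := x) L.zero_mem

omit [PartialOrder A] [StarOrderedRing A] in
lemma exists_of_dI_lt {x : A} {c : ℝ} (h : dI L x < c) : ∃ p ∈ L, ‖x - p‖ < c := by
  have hne : (L : Set A).Nonempty := ⟨0, L.zero_mem⟩
  obtain ⟨p, hp, hd⟩ := (Metric.infDist_lt_iff hne).mp h
  exact ⟨p, hp, by rwa [← dist_eq_norm]⟩

omit [PartialOrder A] [StarOrderedRing A] in
lemma dI_add_le (x y : A) : dI L (x + y) ≤ dI L x + dI L y := by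
  refine le_of_forall_pos_le_add fun ε hε => ?_
  obtain ⟨p, hp, hxp⟩ := exists_of_dI_lt (L := L) (x := x) (c := dI L x + ε / 2) (by linarith)
  obtain ⟨q, hq, hyq⟩ := exists_of_dI_lt (L := L) (x := y) (c := dI L y + ε / 2) (by linarith)
  have h1 : dI L (x + y) ≤ ‖x + y - (p + q)‖ := dI_le (L.add_mem hp hq)
  have h2 : x + y - (p + q) = (x - p) + (y - q) := by abel
  rw [h2] at h1
  have h3 := norm_add_le (x - p) (y - q)
  linarith

omit [PartialOrder A] [StarOrderedRing A] in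
lemma dI_of_mem_sub {x y : A} (h : x - y ∈ L) : dI L x ≤ dI L y := by
  have h1 := dI_add_le (L := L) (x - y) y
  have h2 : dI L (x - y) = 0 := by
    have := dI_le (L := L) (x := x - y) h
    have h3 := dI_nonneg (L := L) (x - y)
    simp at this
    linarith
  simp only [sub_add_cancel] at h1
  linarith

omit [PartialOrder A] [StarOrderedRing A] in
lemma dI_eq_of_sub_mem {x y : A} (h : x - y ∈ L) : dI L x = dI L y := by
  refine le_antisymm (dI_of_mem_sub h) (dI_of_mem_sub ?_)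
  have := L.neg_mem h
  rwa [neg_sub] at this

omit [PartialOrder A] [StarOrderedRing A] in
lemma dI_mul_le (x y : A) : dI L (x * y) ≤ dI L x * dI L y := by
  have key : ∀ c d : ℝ, dI L x < c → dI L y < d → dI L (x * y) ≤ c * d := by
    intro c d hc hd
    obtain ⟨p, hp, hxp⟩ := exists_of_dI_lt hc
    obtain ⟨q, hq, hyq⟩ := exists_of_dI_lt hd
    have hm : p * y + x * q - p * q ∈ L :=
      L.sub_mem (L.add_mem (L.mul_mem_right _ _ hp) (L.mul_mem_left _ _ hq)) (L.mul_mem_left _ _ hq)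
    have h1 := dI_le (L := L) (x := x * y) hm
    have h2 : x * y - (p * y + x * q - p * q) = (x - p) * (y - q) := by noncomm_ring
    rw [h2] at h1
    have h3 := norm_mul_le (x - p) (y - q)
    have hc0 : 0 ≤ c := (dI_nonneg x).trans hc.le
    have h4 : ‖x - p‖ * ‖y - q‖ ≤ c * d := by
      apply mul_le_mul hxp.le hyq.le (norm_nonneg _) hc0
    linarith
  have hx0 := dI_nonneg (L := L) x
  have hy0 := dI_nonneg (L := L) y
  refine le_of_forall_pos_le_add fun ε hε => ?_
  set t : ℝ := min 1 (ε / (dI L x + dI L y + 1)) with ht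
  have ht0 : 0 < t := lt_min one_pos (by positivity)
  have ht1 : t ≤ 1 := min_le_left _ _
  have ht2 : t * (dI L x + dI L y + 1) ≤ ε := by
    have : t ≤ ε / (dI L x + dI L y + 1) := min_le_right _ _
    rwa [le_div_iff₀ (by positivity)] at this
  have h5 := key (dI L x + t) (dI L y + t) (by linarith) (by linarith)
  nlinarith

lemma dI_star (hL : IsClosed (L : Set A)) (x : A) : dI L (star x) = dI L x := by
  have key : ∀ z : A, dI L (star z) ≤ dI L z := by
    intro z
    refine le_of_forall_pos_le_add fun ε hε => ?_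
    obtain ⟨p, hp, hzp⟩ := exists_of_dI_lt (L := L) (x := z) (c := dI L z + ε) (by linarith)
    have h1 := dI_le (L := L) (x := star z) (star_mem_of_isClosed hL hp)
    rw [← star_sub, norm_star] at h1
    linarith
  refine le_antisymm (key x) ?_
  have := key (star x)
  rwa [star_star] at this

omit [PartialOrder A] [StarOrderedRing A] in
lemma dI_eq_zero_iff (hL : IsClosed (L : Set A)) {x : A} : dI L x = 0 ↔ x ∈ L := by
  have hne : (L : Set A).Nonempty := ⟨0, L.zero_mem⟩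
  exact (hL.mem_iff_infDist_zero hne).symm

/-- The `C⋆`-inequality for the quotient norm. -/
lemma dI_sq_le (hL : IsClosed (L : Set A)) (x : A) : dI L x ^ 2 ≤ dI L (star x * x) := by
  refine le_of_forall_pos_le_add fun ε hε => ?_
  obtain ⟨p, hp, hxp⟩ := exists_of_dI_lt (L := L) (x := star x * x)
    (c := dI L (star x * x) + ε / 2) (by linarith)
  obtain ⟨e, Φ, h1, h2, h3, h4⟩ := exists_contraction p (η := ε / 2) (by positivity)
  have he : e ∈ L := unit_mul_mem hL (L.mul_mem_left _ _ hp) Φ h1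
  set D : A⁺¹ := (1 : A⁺¹) - (e : A⁺¹) with hD
  have hDs : star D = D := by
    rw [hD, star_sub, star_one, ← inr_star, h2.star_eq]
  have h5 : dI L x ≤ ‖(x : A⁺¹) * D‖ := by
    have h6 : ((x - x * e : A) : A⁺¹) = (x : A⁺¹) * D := by simp [hD, mul_sub]
    rw [← h6, norm_inr]
    exact dI_le (L.mul_mem_left _ _ he)
  have h7 : ‖(x : A⁺¹) * D‖ * ‖(x : A⁺¹) * D‖ = ‖D * ((star x * x : A) : A⁺¹) * D‖ := by
    rw [← CStarRing.norm_star_mul_self, star_mul, hDs, ← inr_star, inr_mul]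
    noncomm_ring
  have h8 : ‖D * ((star x * x : A) : A⁺¹) * D‖ ≤ ‖((star x * x : A) : A⁺¹) * D‖ := by
    rw [mul_assoc]
    calc _ ≤ ‖D‖ * ‖((star x * x : A) : A⁺¹) * D‖ := norm_mul_le _ _
      _ ≤ 1 * ‖((star x * x : A) : A⁺¹) * D‖ := by gcongr
      _ = _ := one_mul _
  have h9 : ‖((star x * x : A) : A⁺¹) * D‖ ≤ dI L (star x * x) + ε / 2 + ε / 2 := by
    have e : ((star x * x : A) : A⁺¹) * D = ((star x * x - p : A) : A⁺¹) * D + (p : A⁺¹) * D := by
      rw [inr_sub, sub_mul]; abel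
    rw [e]
    refine (norm_add_le _ _).trans ?_
    have h10 : ‖((star x * x - p : A) : A⁺¹) * D‖ ≤ ‖star x * x - p‖ * 1 := by
      refine (norm_mul_le _ _).trans ?_
      rw [norm_inr]
      gcongr
    rw [mul_one] at h10
    linarith
  have h11 : dI L x ^ 2 ≤ ‖(x : A⁺¹) * D‖ * ‖(x : A⁺¹) * D‖ := by
    rw [sq]
    exact mul_le_mul h5 h5 (dI_nonneg x) (norm_nonneg _)
  linarith

/-- Monotonicity of the quotient norm on positive elements. -/
lemma dI_mono (hL : IsClosed (L : Set A)) {u v : A} (hu : 0 ≤ u) (huv : u ≤ v) :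
    dI L u ≤ dI L v := by
  have hv : 0 ≤ v := hu.trans huv
  refine le_of_forall_pos_le_add fun ε hε => ?_
  obtain ⟨p, hp, hxp⟩ := exists_of_dI_lt (L := L) (x := v) (c := dI L v + ε / 2) (by linarith)
  obtain ⟨e, Φ, h1, h2, h3, h4⟩ := exists_contraction p (η := ε / 2) (by positivity)
  have he : e ∈ L := unit_mul_mem hL (L.mul_mem_left _ _ hp) Φ h1
  set D : A⁺¹ := (1 : A⁺¹) - (e : A⁺¹) with hD
  have hDs : star D = D := by
    rw [hD, star_sub, star_one, ← inr_star, h2.star_eq]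
  set r : A := CFC.sqrt u with hr
  have hrr : r * r = u := CFC.sqrt_mul_sqrt_self u hu
  have hrs : star r = r := (CFC.sqrt_nonneg u).isSelfAdjoint.star_eq
  have h5 : dI L r ≤ ‖(r : A⁺¹) * D‖ := by
    have h6 : ((r - r * e : A) : A⁺¹) = (r : A⁺¹) * D := by simp [hD, mul_sub]
    rw [← h6, norm_inr]
    exact dI_le (L.mul_mem_left _ _ he)
  have h7 : ‖(r : A⁺¹) * D‖ * ‖(r : A⁺¹) * D‖ = ‖D * (u : A⁺¹) * D‖ := by
    rw [← CStarRing.norm_star_mul_self, star_mul, hDs, ← inr_star, hrs, ← hrr, inr_mul]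
    noncomm_ring
  have h8 : ‖D * (u : A⁺¹) * D‖ ≤ ‖D * (v : A⁺¹) * D‖ := by
    have h81 := star_left_conjugate_le_conjugate
      ((inr_le_iff u v hu.isSelfAdjoint hv.isSelfAdjoint).mpr huv) D
    have h82 := star_left_conjugate_nonneg (inr_nonneg_iff.mpr hu) D
    rw [hDs] at h81 h82
    exact CStarAlgebra.norm_le_norm_of_nonneg_of_le h82 h81
  have h9 : ‖D * (v : A⁺¹) * D‖ ≤ dI L v + ε / 2 + ε / 2 := by
    have e1 : D * (v : A⁺¹) * D = D * (((v - p : A) : A⁺¹) * D + (p : A⁺¹) * D) := by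
      have : ((v - p : A) : A⁺¹) * D + (p : A⁺¹) * D = (v : A⁺¹) * D := by
        rw [inr_sub, sub_mul]; abel
      rw [this, mul_assoc]
    rw [e1]
    refine (norm_mul_le _ _).trans ?_
    have h10 : ‖((v - p : A) : A⁺¹) * D‖ ≤ ‖v - p‖ * 1 := by
      refine (norm_mul_le _ _).trans ?_
      rw [norm_inr]
      gcongr
    rw [mul_one] at h10
    have h12 := norm_add_le (((v - p : A) : A⁺¹) * D) ((p : A⁺¹) * D)
    calc _ ≤ 1 * ‖((v - p : A) : A⁺¹) * D + (p : A⁺¹) * D‖ := by gcongr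
      _ ≤ _ := by linarith
  have h11 : dI L u ≤ ‖(r : A⁺¹) * D‖ * ‖(r : A⁺¹) * D‖ := by
    have h13 := dI_mul_le (L := L) r r
    rw [hrr] at h13
    exact h13.trans (mul_le_mul h5 h5 (dI_nonneg r) (norm_nonneg _))
  linarith

lemma dI_mul_star_self (hL : IsClosed (L : Set A)) (x : A) : dI L (star x * x) = dI L x ^ 2 := by
  refine le_antisymm ?_ (dI_sq_le hL x)
  have := dI_mul_le (L := L) (star x) x
  rwa [dI_star hL, ← sq] at this

lemma dI_self_mul_self (hL : IsClosed (L : Set A)) {x : A} (hx : IsSelfAdjoint x) :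
    dI L (x * x) = dI L x ^ 2 := by
  have := dI_mul_star_self hL x
  rwa [hx.star_eq] at this

lemma mem_of_star_mul_self_mem (hL : IsClosed (L : Set A)) {x : A} (h : star x * x ∈ L) : x ∈ L := by
  rw [← dI_eq_zero_iff hL] at h ⊢
  rw [dI_mul_star_self hL] at h
  exact pow_eq_zero_iff (two_ne_zero) |>.mp h

lemma mem_of_mul_self_mem (hL : IsClosed (L : Set A)) {x : A} (hx : IsSelfAdjoint x)
    (h : x * x ∈ L) : x ∈ L := by
  apply mem_of_star_mul_self_mem hL
  rwa [hx.star_eq]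

/-- A closed ideal as a closed star subalgebra. -/
def idealSub (L : TwoSidedIdeal A) (hL : IsClosed (L : Set A)) : NonUnitalStarSubalgebra ℂ A where
  carrier := L
  add_mem' := L.add_mem
  zero_mem' := L.zero_mem
  mul_mem' := fun _ hb => L.mul_mem_left _ _ hb
  smul_mem' := fun c _ hx => smul_mem_of_isClosed hL c hx
  star_mem' := star_mem_of_isClosed hL

lemma cfcₙ_mem_ideal (hL : IsClosed (L : Set A)) {a : A} (ha : a ∈ L) (f : ℝ → ℝ) :
    cfcₙ f a ∈ L := by
  haveI : IsClosed ((idealSub L hL : NonUnitalStarSubalgebra ℂ A) : Set A) := hL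
  exact cfcₙ_mem (𝕜 := ℝ) (𝕜' := ℂ) (s := idealSub L hL) f ha

/-- If `a` is within `δ` of the closed ideal `L`, then `(a - δ)₊ ∈ L`. -/
lemma cut_mem_of_dI_lt (hL : IsClosed (L : Set A)) {a : A} (ha : 0 ≤ a) {δ : ℝ}
    (h : dI L a < δ) : cut δ a ∈ L := by
  obtain ⟨p, hp, hap⟩ := exists_of_dI_lt h
  have hδ : 0 < δ := lt_of_le_of_lt (norm_nonneg _) hap
  set p' : A := (2⁻¹ : ℂ) • (p + star p) with hp'
  have hp'L : p' ∈ L := smul_mem_of_isClosed hL _ (L.add_mem hp (star_mem_of_isClosed hL hp))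
  have hp'sa : IsSelfAdjoint p' := by
    rw [IsSelfAdjoint, hp', star_smul, (IsSelfAdjoint.add_star_self p).star_eq]; simp
  have hn : ‖a - p'‖ ≤ ‖a - p‖ := by
    have e : a - p' = (2⁻¹ : ℂ) • (a - p) + (2⁻¹ : ℂ) • (a - star p) := by
      have e3 : a = (2⁻¹ : ℂ) • a + (2⁻¹ : ℂ) • a := by
        rw [← add_smul]; norm_num
      rw [hp', smul_sub, smul_sub, smul_add]
      nth_rw 1 [e3]
      abel
    have h2 : ‖a - star p‖ = ‖a - p‖ := by
      have : a - star p = star (a - p) := by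
        rw [star_sub, ha.isSelfAdjoint.star_eq]
      rw [this, norm_star]
    rw [e]
    calc _ ≤ ‖(2⁻¹ : ℂ) • (a - p)‖ + ‖(2⁻¹ : ℂ) • (a - star p)‖ := norm_add_le _ _
      _ = 2⁻¹ * ‖a - p‖ + 2⁻¹ * ‖a - star p‖ := by
          rw [norm_smul, norm_smul]; norm_num
      _ = ‖a - p‖ := by rw [h2]; ring
  set b : A := p'⁺ with hb
  have hb0 : 0 ≤ b := CFC.posPart_nonneg p'
  have hbL : b ∈ L := by
    rw [hb, CFC.posPart_def]
    exact cfcₙ_mem_ideal hL hp'L _
  have hmid : (a : A⁺¹) ≤ (b : A⁺¹) + algebraMap ℝ A⁺¹ ‖a - p'‖ := by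
    have h1 : IsSelfAdjoint (a - p') := ha.isSelfAdjoint.sub hp'sa
    have h2 : ((a - p' : A) : A⁺¹) ≤ algebraMap ℝ A⁺¹ ‖a - p'‖ := by
      have h3 : IsSelfAdjoint ((a - p' : A) : A⁺¹) := (isSelfAdjoint_inr (R := ℂ)).mpr h1
      have h4 := h3.le_algebraMap_norm_self
      rwa [norm_inr] at h4
    have h5 : (p' : A⁺¹) ≤ (b : A⁺¹) := by
      have h6 : p' ≤ b := by
        rw [hb]
        exact CFC.le_posPart (a := p') hp'sa
      exact (inr_le_iff _ _ hp'sa hb0.isSelfAdjoint).mpr h6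
    have e : (a : A⁺¹) = ((a - p' : A) : A⁺¹) + (p' : A⁺¹) := by
      rw [← inr_add]; simp
    rw [e, add_comm (b : A⁺¹)]
    exact add_le_add h2 h5
  refine mem_of_forall_approx hL fun ε hε => ?_
  obtain ⟨w, hw⟩ := exists_conj_cut_of_le ha hb0 (norm_nonneg _) (lt_of_le_of_lt hn hap) hmid hε
  refine ⟨star w * b * w, L.mul_mem_right _ _ (L.mul_mem_left _ _ hbL), ?_⟩
  rwa [norm_sub_rev]

end closedIdeal

section idealOf

omit [PartialOrder A] [StarOrderedRing A] in
/-- The closed two-sided ideal generated by a set. -/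
def idealOf (S : Set A) : TwoSidedIdeal A :=
  TwoSidedIdeal.mk'
    {a | ∀ ε > (0 : ℝ), ∃ (M : ℕ) (u z v : Fin M → A), (∀ i, z i ∈ S) ∧
      ‖a - ∑ i, u i * z i * v i‖ < ε}
    (by
      intro ε hε
      exact ⟨0, Fin.elim0, Fin.elim0, Fin.elim0, fun i => i.elim0, by simpa using hε⟩)
    (by
      intro x y hx hy ε hε
      obtain ⟨M, u, z, v, hz, hm⟩ := hx (ε / 2) (by positivity)
      obtain ⟨M', u', z', v', hz', hm'⟩ := hy (ε / 2) (by positivity)
      refine ⟨M + M', Fin.append u u', Fin.append z z', Fin.append v v', ?_, ?_⟩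
      · intro i
        refine Fin.addCases (fun i => ?_) (fun i => ?_) i
        · simpa using hz i
        · simpa using hz' i
      · rw [Fin.sum_univ_add]
        simp only [Fin.append_left, Fin.append_right]
        have : x + y - (∑ i, u i * z i * v i + ∑ i, u' i * z' i * v' i)
            = (x - ∑ i, u i * z i * v i) + (y - ∑ i, u' i * z' i * v' i) := by abel
        rw [this]
        calc _ ≤ _ := norm_add_le _ _
          _ < ε / 2 + ε / 2 := add_lt_add hm hm'
          _ = ε := by ring)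
    (by
      intro x hx ε hε
      obtain ⟨M, u, z, v, hz, hm⟩ := hx ε hε
      refine ⟨M, fun i => - u i, z, v, hz, ?_⟩
      have : -x - ∑ i, -u i * z i * v i = -(x - ∑ i, u i * z i * v i) := by
        simp only [neg_mul, Finset.sum_neg_distrib]
        abel
      rwa [this, norm_neg])
    (by
      intro c x hx ε hε
      obtain ⟨M, u, z, v, hz, hm⟩ := hx (ε / (‖c‖ + 1)) (by positivity)
      refine ⟨M, fun i => c * u i, z, v, hz, ?_⟩
      have : c * x - ∑ i, c * u i * z i * v i = c * (x - ∑ i, u i * z i * v i) := by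
        rw [mul_sub, Finset.mul_sum]
        congr 1
        refine Finset.sum_congr rfl fun i _ => ?_
        noncomm_ring
      rw [this]
      calc _ ≤ ‖c‖ * ‖x - ∑ i, u i * z i * v i‖ := norm_mul_le _ _
        _ ≤ (‖c‖ + 1) * ‖x - ∑ i, u i * z i * v i‖ := by gcongr; linarith
        _ < (‖c‖ + 1) * (ε / (‖c‖ + 1)) := by gcongr
        _ = ε := by field_simp)
    (by
      intro x c hx ε hε
      obtain ⟨M, u, z, v, hz, hm⟩ := hx (ε / (‖c‖ + 1)) (by positivity)
      refine ⟨M, u, z, fun i => v i * c, hz, ?_⟩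
      have : x * c - ∑ i, u i * z i * (v i * c) = (x - ∑ i, u i * z i * v i) * c := by
        rw [sub_mul, Finset.sum_mul]
        congr 1
        refine Finset.sum_congr rfl fun i _ => ?_
        noncomm_ring
      rw [this]
      calc _ ≤ ‖x - ∑ i, u i * z i * v i‖ * ‖c‖ := norm_mul_le _ _
        _ ≤ ‖x - ∑ i, u i * z i * v i‖ * (‖c‖ + 1) := by gcongr; linarith
        _ < (ε / (‖c‖ + 1)) * (‖c‖ + 1) := by gcongr
        _ = ε := by field_simp)

omit [PartialOrder A] [StarOrderedRing A] in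
lemma mem_idealOf_iff {S : Set A} {a : A} : a ∈ idealOf S ↔
    ∀ ε > (0 : ℝ), ∃ (M : ℕ) (u z v : Fin M → A), (∀ i, z i ∈ S) ∧
      ‖a - ∑ i, u i * z i * v i‖ < ε := by
  unfold idealOf
  rw [TwoSidedIdeal.mem_mk']
  rfl

omit [PartialOrder A] [StarOrderedRing A] in
lemma isClosed_idealOf (S : Set A) : IsClosed (idealOf S : Set A) := by
  rw [← closure_subset_iff_isClosed]
  intro x hx
  rw [Metric.mem_closure_iff] at hx
  change x ∈ idealOf S
  rw [mem_idealOf_iff]
  intro ε hε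
  obtain ⟨p, hp, hxp⟩ := hx (ε / 2) (by positivity)
  have hp' : p ∈ idealOf S := hp
  rw [mem_idealOf_iff] at hp'
  obtain ⟨M, u, z, v, hz, hm⟩ := hp' (ε / 2) (by positivity)
  refine ⟨M, u, z, v, hz, ?_⟩
  have : x - ∑ i, u i * z i * v i = (x - p) + (p - ∑ i, u i * z i * v i) := by abel
  rw [this]
  calc _ ≤ _ := norm_add_le _ _
    _ < ε / 2 + ε / 2 := by
      apply add_lt_add _ hm
      rwa [← dist_eq_norm]
    _ = ε := by ring

lemma subset_idealOf {S : Set A} {z : A} (hz : z ∈ S) : z ∈ idealOf S := by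
  rw [mem_idealOf_iff]
  intro ε hε
  obtain ⟨e, he⟩ := exists_approx_unit (fun _ : Unit => z) hε
  refine ⟨1, fun _ => star e, fun _ => z, fun _ => e, fun _ => hz, ?_⟩
  simp only [Fin.sum_univ_one]
  rw [norm_sub_rev]
  exact he ()

omit [PartialOrder A] [StarOrderedRing A] in
lemma idealOf_le {S : Set A} {L : TwoSidedIdeal A} (hL : IsClosed (L : Set A))
    (h : ∀ z ∈ S, z ∈ L) : idealOf S ≤ L := by
  intro a ha
  have ha' : a ∈ idealOf S := ha
  rw [mem_idealOf_iff] at ha'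
  refine mem_of_forall_approx hL fun ε hε => ?_
  obtain ⟨M, u, z, v, hz, hm⟩ := ha' ε hε
  refine ⟨_, ?_, hm⟩
  exact sum_mem fun i _ => L.mul_mem_right _ _ (L.mul_mem_left _ _ (h _ (hz i)))

/-- Membership in the ideal generated by `b` gives Cuntz comparison for cut-downs. -/
lemma exists_cle_cut_of_norm_lt {a b s : A} (ha : 0 ≤ a) (hb : 0 ≤ b) {δ : ℝ}
    (hs : s ∈ idealOf {b}) (h : ‖a - s‖ < δ) : ∃ M, CLE (Amp (cut δ a) 1) (Amp b M) := by
  have hs' := hs
  rw [mem_idealOf_iff] at hs'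
  obtain ⟨M, u, z, v, hz, hm⟩ := hs' ((δ - ‖a - s‖) / 2) (by linarith)
  have hzb : z = fun _ => b := funext fun i => hz i
  subst hzb
  refine ⟨M, cle_cut_of_norm_le (δ := (δ + ‖a - s‖) / 2) ha hb u v ?_ ?_ ?_⟩
  · have := norm_nonneg (a - s); have := (lt_of_le_of_lt (norm_nonneg _) h); linarith
  · linarith
  · have e : a - ∑ i, u i * b * v i = (a - s) + (s - ∑ i, u i * b * v i) := by abel
    rw [e]
    have := norm_add_le (a - s) (s - ∑ i, u i * b * v i)
    linarith

lemma mem_idealOf_of_cle {a b : A} {M : ℕ} (h : CLE (Amp a 1) (Amp b M)) : a ∈ idealOf {b} := by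
  rw [cle_one_iff] at h
  rw [mem_idealOf_iff]
  intro ε hε
  obtain ⟨w, hw⟩ := h ε hε
  refine ⟨M, fun c => star (w c), fun _ => b, w, fun _ => rfl, ?_⟩
  rw [norm_sub_rev]
  exact hw

end idealOf

end Vale.Agent.Lib.P133
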