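import Mathlib
import Vale.Agent.Lib.P133.Ideals

namespace Vale.Agent.Lib.P133

open scoped CStarAlgebra
open Unitization

variable {A : Type*} [NonUnitalCStarAlgebra A]

/-- `g A g` as a star subalgebra, for self-adjoint `g`. -/
def herBase (g : A) (hg : IsSelfAdjoint g) : NonUnitalStarSubalgebra ℂ A where
  carrier := {x | ∃ c, x = g * c * g}
  add_mem' := by
    rintro _ _ ⟨c, rfl⟩ ⟨d, rfl⟩
    exact ⟨c + d, by noncomm_ring⟩
  zero_mem' := ⟨0, by simp⟩
  mul_mem' := by
    rintro _ _ ⟨c, rfl⟩ ⟨d, rfl⟩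
    exact ⟨c * (g * g) * d, by noncomm_ring⟩
  smul_mem' := by
    rintro k _ ⟨c, rfl⟩
    exact ⟨k • c, by simp [mul_smul_comm, smul_mul_assoc]⟩
  star_mem' := by
    rintro _ ⟨c, rfl⟩
    exact ⟨star c, by simp [star_mul, hg.star_eq, mul_assoc]⟩

/-- The hereditary subalgebra generated by `g`. -/
def her (g : A) (hg : IsSelfAdjoint g) : NonUnitalStarSubalgebra ℂ A :=
  (herBase g hg).topologicalClosure

lemma mem_her_iff {g x : A} {hg : IsSelfAdjoint g} :
    x ∈ her g hg ↔ ∀ ε > (0 : ℝ), ∃ c, ‖x - g * c * g‖ < ε := by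
  have : x ∈ her g hg ↔ x ∈ closure ((herBase g hg : NonUnitalStarSubalgebra ℂ A) : Set A) := Iff.rfl
  rw [this, Metric.mem_closure_iff]
  constructor
  · intro h ε hε
    obtain ⟨y, ⟨c, rfl⟩, hy⟩ := h ε hε
    exact ⟨c, by rwa [dist_eq_norm] at hy⟩
  · intro h ε hε
    obtain ⟨c, hc⟩ := h ε hε
    exact ⟨g * c * g, ⟨c, rfl⟩, by rwa [dist_eq_norm]⟩

lemma isClosed_her (g : A) (hg : IsSelfAdjoint g) : IsClosed ((her g hg : NonUnitalStarSubalgebra ℂ A) : Set A) :=
  NonUnitalStarSubalgebra.isClosed_topologicalClosure _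

lemma cfcₙ_mem_her {g : A} {hg : IsSelfAdjoint g} {a : A} (ha : a ∈ her g hg) (f : ℝ → ℝ) :
    cfcₙ f a ∈ her g hg := by
  have := isClosed_her g hg
  exact cfcₙ_mem (𝕜 := ℝ) (𝕜' := ℂ) (s := her g hg) f ha

variable [PartialOrder A] [StarOrderedRing A]

/-- A positive element of the hereditary subalgebra of `g` is Cuntz below `g * g`. -/
lemma cle_of_mem_her {g w : A} {hg : IsSelfAdjoint g} (hw : w ∈ her g hg) (hw0 : 0 ≤ w) :
    CLE (Amp w 1) (Amp (g * g) 1) := by
  rw [cle_one_iff]
  intro ε hε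
  set r : A := CFC.sqrt w with hr
  have hrr : r * r = w := CFC.sqrt_mul_sqrt_self w hw0
  have hrs : star r = r := (CFC.sqrt_nonneg w).isSelfAdjoint.star_eq
  have hrmem : r ∈ her g hg := by
    rw [hr, CFC.sqrt_eq_real_sqrt w hw0]
    exact cfcₙ_mem_her hw _
  set C : ℝ := 2 * ‖r‖ + 1 with hC
  have hC0 : 0 < C := by positivity
  set η : ℝ := min 1 (ε / (2 * C)) with hη
  have hη0 : 0 < η := lt_min one_pos (by positivity)
  have hη1 : η ≤ 1 := min_le_left _ _
  have hη2 : η * C ≤ ε / 2 := by
    have : η ≤ ε / (2 * C) := min_le_right _ _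
    calc η * C ≤ ε / (2 * C) * C := by gcongr
      _ = ε / 2 := by field_simp
  obtain ⟨c, hc⟩ := (mem_her_iff.mp hrmem) η hη0
  refine ⟨fun _ => star c * g, ?_⟩
  simp only [Fin.sum_univ_one, Amp]
  set t : A := g * c * g with ht
  have hst : star t = g * star c * g := by
    simp [ht, star_mul, hg.star_eq, mul_assoc]
  have e1 : star (star c * g) * (g * g) * (star c * g) = t * star t := by
    simp only [star_mul, star_star, hg.star_eq, ht]
    noncomm_ring
  rw [e1, ← hrr]
  have e2 : t * star t - r * r = (t - r) * star t + r * (star t - r) := by noncomm_ring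
  rw [e2]
  have h1 : ‖t - r‖ < η := by rwa [norm_sub_rev]
  have h2 : ‖star t - r‖ < η := by
    have : star t - r = star (t - r) := by rw [star_sub, hrs]
    rw [this, norm_star]; exact h1
  have h3 : ‖star t‖ ≤ ‖r‖ + 1 := by
    rw [norm_star]
    have : t = (t - r) + r := by abel
    rw [this]
    calc _ ≤ ‖t - r‖ + ‖r‖ := norm_add_le _ _
      _ ≤ ‖r‖ + 1 := by linarith
  calc _ ≤ ‖(t - r) * star t‖ + ‖r * (star t - r)‖ := norm_add_le _ _
    _ ≤ ‖t - r‖ * ‖star t‖ + ‖r‖ * ‖star t - r‖ := add_le_add (norm_mul_le _ _) (norm_mul_le _ _)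
    _ ≤ η * (‖r‖ + 1) + ‖r‖ * η := by
        gcongr
    _ = η * C := by rw [hC]; ring
    _ ≤ ε / 2 := hη2
    _ < ε := by linarith

/-- The set of elements `y ≥ 0` with `y ⊕ y ≾ h`. -/
def halves (h : A) : Set A := {y | 0 ≤ y ∧ CLE (Amp y 2) (Amp h 1)}

/-- A square-zero element of the hereditary subalgebra lies in the ideal generated by halves. -/
lemma mem_idealOf_halves_of_sq_zero {g z : A} {hg : IsSelfAdjoint g} (hz : z ∈ her g hg)
    (hz2 : z * z = 0) : z ∈ idealOf (halves (g * g)) := by
  set y0 : A := star z * z with hy0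
  have hy00 : 0 ≤ y0 := star_mul_self_nonneg z
  set w : A := z * star z + y0 with hw
  have hw0 : 0 ≤ w := add_nonneg (mul_star_self_nonneg z) hy00
  have hsz : star z ∈ her g hg := star_mem hz
  have hwmem : w ∈ her g hg := add_mem (mul_mem hz hsz) (mul_mem hsz hz)
  set r : A := CFC.sqrt y0 with hr
  have hrr : r * r = y0 := CFC.sqrt_mul_sqrt_self y0 hy00
  have hrs : star r = r := (CFC.sqrt_nonneg y0).isSelfAdjoint.star_eq
  have hyz : y0 * z = 0 := by rw [hy0, mul_assoc, hz2, mul_zero]
  have hzy : star z * y0 = 0 := by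
    have : star (y0 * z) = 0 := by rw [hyz, star_zero]
    rw [star_mul, hy00.isSelfAdjoint.star_eq] at this
    exact this
  have hsz2 : star z * star z = 0 := by
    rw [← star_mul, hz2, star_zero]
  set y : A := y0 * y0 * y0 with hy
  have hyn : 0 ≤ y := by
    have := star_left_conjugate_nonneg hy00 y0
    rwa [hy00.isSelfAdjoint.star_eq] at this
  have hcle : CLE (Amp y 2) (Amp w 1) := by
    intro ε hε
    refine ⟨fun _ => ![y0, z * r], ?_⟩
    have hwexp : w = z * star z + star z * z := rfl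
    have e00 : y0 * w * y0 = y := by
      rw [hw, mul_add, add_mul, ← mul_assoc y0 z, hyz]
      simp [hy]
    have e01 : y0 * w * (z * r) = 0 := by
      rw [hwexp]
      have : y0 * (z * star z + star z * z) * (z * r)
          = (y0 * z) * (star z * z) * r + y0 * star z * (z * z) * r := by noncomm_ring
      rw [this, hyz, hz2]; simp
    have e11 : star (z * r) * w * (z * r) = y := by
      rw [star_mul, hrs, hwexp]
      have : r * star z * (z * star z + star z * z) * (z * r)
          = r * (star z * z) * (star z * z) * r + r * star z * star z * (z * z) * r := by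
        noncomm_ring
      rw [this, hz2]
      simp only [mul_zero, zero_mul, add_zero]
      have hy' : y = (r * r) * (r * r) * (r * r) := by rw [hrr]
      rw [hy', show r * (star z * z) * (star z * z) * r = r * y0 * y0 * r from rfl, ← hrr]
      noncomm_ring
    have e10 : star (z * r) * w * y0 = 0 := by
      have h1 : star (y0 * w * (z * r)) = star (z * r) * w * y0 := by
        rw [star_mul (y0 * w) (z * r), star_mul y0 w, hy00.isSelfAdjoint.star_eq,
          hw0.isSelfAdjoint.star_eq, mul_assoc (star (z * r))]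
      rw [← h1, e01, star_zero]
    have e11' : star r * star z * w * (z * r) = y := by rw [← star_mul]; exact e11
    have e10' : star r * star z * w * y0 = 0 := by rw [← star_mul]; exact e10
    intro a b
    fin_cases a <;> fin_cases b <;>
      simp [Amp, hy00.isSelfAdjoint.star_eq, e00, e01, e11', e10', hε]
  have hyh : y ∈ halves (g * g) := ⟨hyn, hcle.trans (cle_of_mem_her hwmem hw0)⟩
  set L := idealOf (halves (g * g)) with hL
  have hLc : IsClosed (L : Set A) := isClosed_idealOf _
  have hyL : y ∈ L := subset_idealOf hyh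
  have h4 : (y0 * y0) * (y0 * y0) ∈ L := by
    have : (y0 * y0) * (y0 * y0) = y0 * y := by rw [hy]; noncomm_ring
    rw [this]
    exact L.mul_mem_left _ _ hyL
  have h2 : y0 * y0 ∈ L := mem_of_mul_self_mem hLc
    (by rw [IsSelfAdjoint, star_mul, hy00.isSelfAdjoint.star_eq]) h4
  have h1 : y0 ∈ L := mem_of_mul_self_mem hLc hy00.isSelfAdjoint h2
  exact mem_of_star_mul_self_mem hLc h1

end Vale.Agent.Lib.P133
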