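import Mathlib
import Vale.Agent.Lib.P133.Her

namespace Vale.Agent.Lib.P133

open scoped CStarAlgebra
open Unitization Filter Topology

variable {A : Type*} [NonUnitalCStarAlgebra A] [PartialOrder A] [StarOrderedRing A]

/-- The commutator `[c, b]` for `c` in the unitization and `b ∈ A`, as an element of `A`. -/
noncomputable def commBy (b : A) (c : A⁺¹) : A := c.snd * b - b * c.snd

omit [PartialOrder A] [StarOrderedRing A] in
lemma inr_commBy (b : A) (c : A⁺¹) : ((commBy b c : A) : A⁺¹) = c * (b : A⁺¹) - (b : A⁺¹) * c := by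
  ext <;> simp [commBy, sub_eq_add_neg]
  abel

omit [PartialOrder A] [StarOrderedRing A] in
lemma commBy_sub (b : A) (c d : A⁺¹) : commBy b (c - d) = commBy b c - commBy b d := by
  apply inr_injective (R := ℂ)
  rw [inr_sub, inr_commBy, inr_commBy, inr_commBy]
  noncomm_ring

omit [PartialOrder A] [StarOrderedRing A] in
lemma commBy_sub_const (b : A) (c : A⁺¹) (r : ℝ) :
    commBy b (c - algebraMap ℝ A⁺¹ r) = commBy b c := by
  apply inr_injective (R := ℂ)
  rw [inr_commBy, inr_commBy, sub_mul, mul_sub, Algebra.commutes]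
  abel

omit [PartialOrder A] [StarOrderedRing A] in
lemma norm_commBy_le (b : A) (c : A⁺¹) : ‖commBy b c‖ ≤ 2 * ‖c‖ * ‖b‖ := by
  rw [← norm_inr (𝕜 := ℂ), inr_commBy]
  calc _ ≤ ‖c * (b : A⁺¹)‖ + ‖(b : A⁺¹) * c‖ := norm_sub_le _ _
    _ ≤ ‖c‖ * ‖(b : A⁺¹)‖ + ‖(b : A⁺¹)‖ * ‖c‖ := add_le_add (norm_mul_le _ _) (norm_mul_le _ _)
    _ = 2 * ‖c‖ * ‖b‖ := by rw [norm_inr]; ring

variable {L : TwoSidedIdeal A}

lemma dI_sub_sq_le (hL : IsClosed (L : Set A)) {U V : A} (h : star U * V ∈ L) :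
    dI L (U - V) ^ 2 ≤ dI L U ^ 2 + dI L V ^ 2 := by
  have h1 := dI_sq_le hL (U - V)
  have h2 : star V * U ∈ L := by
    have := star_mem_of_isClosed hL h
    rwa [star_mul, star_star] at this
  have h3 : dI L (star (U - V) * (U - V)) ≤ dI L (star U * U + star V * V) := by
    apply dI_of_mem_sub
    have : star (U - V) * (U - V) - (star U * U + star V * V) = - (star U * V + star V * U) := by
      rw [star_sub]; noncomm_ring
    rw [this]
    exact L.neg_mem (L.add_mem h h2)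
  have h4 := dI_add_le (L := L) (star U * U) (star V * V)
  rw [dI_mul_star_self hL, dI_mul_star_self hL] at h4
  linarith

/-- The key estimate: commutators with `a` die modulo `L` if all `f(a) b g(a)` with `f g = 0` do. -/
lemma dI_commBy_bound (hL : IsClosed (L : Set A)) {a b : A} (ha : IsSelfAdjoint a)
    (H : ∀ f g : ℝ → ℝ, Continuous f → Continuous g → (∀ t, f t * g t = 0) →
      ∀ b' ∈ ({b, star b, star b * b} : Set A),
        ∃ z ∈ L, cfc f (a : A⁺¹) * (b' : A⁺¹) * cfc g (a : A⁺¹) = (z : A⁺¹)) (m : ℕ) :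
    ∀ f : ℝ → ℝ, Continuous f → ∀ R : ℝ, 0 ≤ R → (∀ t ∈ spectrum ℝ (a : A⁺¹), |f t| ≤ R) →
      dI L (commBy b (cfc f (a : A⁺¹))) ≤ 2 * R * ‖b‖ * (3 / 4) ^ m := by
  have ha' : IsSelfAdjoint (a : A⁺¹) := (isSelfAdjoint_inr (R := ℂ)).mpr ha
  induction m with
  | zero =>
    intro f hf R hR hb
    refine (dI_le_norm _).trans ((norm_commBy_le _ _).trans ?_)
    have : ‖cfc f (a : A⁺¹)‖ ≤ R := norm_cfc_le hR fun t ht => by
      rw [Real.norm_eq_abs]; exact hb t ht
    simp only [pow_zero, mul_one]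
    gcongr
  | succ m ih =>
    intro f hf R hR hb
    set fp : ℝ → ℝ := fun t => max (f t) 0 with hfp
    set fn : ℝ → ℝ := fun t => max (- f t) 0 with hfn
    have hfpc : Continuous fp := by fun_prop
    have hfnc : Continuous fn := by fun_prop
    set X : A⁺¹ := cfc fp (a : A⁺¹) with hX
    set Y : A⁺¹ := cfc fn (a : A⁺¹) with hY
    have hXs : star X = X := (cfc_predicate fp (a : A⁺¹) : IsSelfAdjoint X).star_eq
    have hYs : star Y = Y := (cfc_predicate fn (a : A⁺¹) : IsSelfAdjoint Y).star_eq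
    have hXY : X * Y = 0 := by
      rw [hX, hY, ← cfc_mul _ _ _ (by fun_prop) (by fun_prop)]
      have : (fun t => fp t * fn t) = fun _ => (0 : ℝ) := by
        funext t
        rcases le_total (f t) 0 with h | h
        · simp [hfp, max_eq_right h]
        · simp [hfn, max_eq_right (neg_nonpos.mpr h)]
      rw [this]
      exact cfc_const_zero ℝ _
    have hf_eq : cfc f (a : A⁺¹) = X - Y := by
      rw [hX, hY, ← cfc_sub _ _ _ (by fun_prop) (by fun_prop)]
      refine cfc_congr fun t _ => ?_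
      exact (max_zero_sub_max_neg_zero_eq_self (f t)).symm
    have hzero : ∀ t, fp t * fn t = 0 := by
      intro t
      rcases le_total (f t) 0 with h | h
      · simp [hfp, max_eq_right h]
      · simp [hfn, max_eq_right (neg_nonpos.mpr h)]
    obtain ⟨z1, hz1, hz1e⟩ := H fp fn hfpc hfnc hzero b (by simp)
    obtain ⟨z2, hz2, hz2e⟩ := H fp fn hfpc hfnc hzero (star b) (by simp)
    obtain ⟨z3, hz3, hz3e⟩ := H fp fn hfpc hfnc hzero (star b * b) (by simp)
    replace hz1e : X * (b : A⁺¹) * Y = (z1 : A⁺¹) := hz1e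
    replace hz2e : X * ((star b : A) : A⁺¹) * Y = (z2 : A⁺¹) := hz2e
    replace hz3e : X * ((star b * b : A) : A⁺¹) * Y = (z3 : A⁺¹) := hz3e
    set U : A := commBy b X with hU
    set V : A := commBy b Y with hV
    have hUV : star U * V ∈ L := by
      have e : star U * V = - (star b * z1) - z2 * b + z3 := by
        apply inr_injective (R := ℂ)
        rw [inr_mul, inr_star, hU, hV, inr_commBy, inr_commBy, star_sub, star_mul, star_mul, hXs,
          ← inr_star]
        simp only [inr_add, inr_sub, inr_neg, inr_mul]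
        rw [← hz1e, ← hz2e, ← hz3e, inr_mul, inr_star]
        have : (star (b : A⁺¹) * X - X * star (b : A⁺¹)) * (Y * (b : A⁺¹) - (b : A⁺¹) * Y)
            = star (b : A⁺¹) * (X * Y) * (b : A⁺¹) - star (b : A⁺¹) * (X * (b : A⁺¹) * Y)
              - (X * star (b : A⁺¹) * Y) * (b : A⁺¹) + X * (star (b : A⁺¹) * (b : A⁺¹)) * Y := by
          noncomm_ring
        rw [this, hXY]
        noncomm_ring
      rw [e]
      exact L.add_mem (L.sub_mem (L.neg_mem (L.mul_mem_left _ _ hz1)) (L.mul_mem_right _ _ hz2)) hz3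
    have hbound : ∀ t ∈ spectrum ℝ (a : A⁺¹), |fp t - R / 2| ≤ R / 2 ∧ |fn t - R / 2| ≤ R / 2 := by
      intro t ht
      have h1 := hb t ht
      have h2 := abs_le.mp h1
      constructor
      · rw [abs_le]
        have h3 : 0 ≤ fp t := le_max_right _ _
        have h4 : fp t ≤ R := max_le h2.2 hR
        constructor <;> linarith
      · rw [abs_le]
        have h3 : 0 ≤ fn t := le_max_right _ _
        have h4 : fn t ≤ R := max_le (by linarith [h2.1]) hR
        constructor <;> linarith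
    have hUb : dI L U ≤ R * ‖b‖ * (3 / 4) ^ m := by
      have h1 := ih (fun t => fp t - R / 2) (by fun_prop) (R / 2) (by positivity)
        (fun t ht => (hbound t ht).1)
      have h2 : cfc (fun t => fp t - R / 2) (a : A⁺¹) = X - algebraMap ℝ A⁺¹ (R / 2) := by
        rw [cfc_sub _ _ _ (by fun_prop) (by fun_prop), cfc_const (R / 2) (a : A⁺¹)]
      rw [h2, commBy_sub_const] at h1
      calc _ ≤ _ := h1
        _ = R * ‖b‖ * (3 / 4) ^ m := by ring
    have hVb : dI L V ≤ R * ‖b‖ * (3 / 4) ^ m := by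
      have h1 := ih (fun t => fn t - R / 2) (by fun_prop) (R / 2) (by positivity)
        (fun t ht => (hbound t ht).2)
      have h2 : cfc (fun t => fn t - R / 2) (a : A⁺¹) = Y - algebraMap ℝ A⁺¹ (R / 2) := by
        rw [cfc_sub _ _ _ (by fun_prop) (by fun_prop), cfc_const (R / 2) (a : A⁺¹)]
      rw [h2, commBy_sub_const] at h1
      calc _ ≤ _ := h1
        _ = R * ‖b‖ * (3 / 4) ^ m := by ring
    rw [hf_eq, commBy_sub]
    have hsq := dI_sub_sq_le hL hUV
    set Z : ℝ := R * ‖b‖ * (3 / 4) ^ m with hZ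
    have hZ0 : 0 ≤ Z := by positivity
    have hU0 := dI_nonneg (L := L) U
    have hV0 := dI_nonneg (L := L) V
    have h5 : dI L U ^ 2 ≤ Z ^ 2 := pow_le_pow_left₀ hU0 hUb 2
    have h6 : dI L V ^ 2 ≤ Z ^ 2 := pow_le_pow_left₀ hV0 hVb 2
    have h7 : dI L (U - V) ^ 2 ≤ (2 * R * ‖b‖ * (3 / 4) ^ (m + 1)) ^ 2 := by
      have e : 2 * R * ‖b‖ * (3 / 4 : ℝ) ^ (m + 1) = (3 / 2) * Z := by
        rw [hZ, pow_succ]; ring
      rw [e]
      nlinarith [sq_nonneg Z]
    exact (pow_le_pow_iff_left₀ (dI_nonneg _) (by positivity) two_ne_zero).mp h7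

/-- Conclusion: `a b - b a ∈ L`. -/
lemma commutator_mem_of_orthogonal (hL : IsClosed (L : Set A)) {a b : A} (ha : IsSelfAdjoint a)
    (H : ∀ f g : ℝ → ℝ, Continuous f → Continuous g → (∀ t, f t * g t = 0) →
      ∀ b' ∈ ({b, star b, star b * b} : Set A),
        ∃ z ∈ L, cfc f (a : A⁺¹) * (b' : A⁺¹) * cfc g (a : A⁺¹) = (z : A⁺¹)) :
    a * b - b * a ∈ L := by
  have ha' : IsSelfAdjoint (a : A⁺¹) := (isSelfAdjoint_inr (R := ℂ)).mpr ha
  have hk : ∀ m, dI L (a * b - b * a) ≤ 2 * ‖a‖ * ‖b‖ * (3 / 4) ^ m := by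
    intro m
    have h1 := dI_commBy_bound hL ha H m (fun t => t) continuous_id ‖a‖ (norm_nonneg _)
      (fun t ht => by
        rw [← Real.norm_eq_abs, ← norm_inr (𝕜 := ℂ) a]
        exact spectrum.norm_le_norm_of_mem ht)
    rw [cfc_id' ℝ (a : A⁺¹)] at h1
    have h2 : commBy b (a : A⁺¹) = a * b - b * a := by
      simp [commBy]
    rwa [h2] at h1
  rw [← dI_eq_zero_iff hL]
  refine le_antisymm ?_ (dI_nonneg _)
  have hlim : Tendsto (fun m : ℕ => 2 * ‖a‖ * ‖b‖ * (3 / 4 : ℝ) ^ m) atTop (𝓝 (2 * ‖a‖ * ‖b‖ * 0)) :=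
    (tendsto_pow_atTop_nhds_zero_of_lt_one (by norm_num) (by norm_num)).const_mul _
  rw [mul_zero] at hlim
  exact ge_of_tendsto' hlim hk

variable {g : A} {hg : IsSelfAdjoint g}

omit [PartialOrder A] [StarOrderedRing A] in
/-- The functional calculus of a self-adjoint element of the hereditary subalgebra. -/
lemma cfc_inr_mem_her {a : A} (ha : a ∈ her g hg) (hasa : IsSelfAdjoint a) (f : ℝ → ℝ)
    (hf : Continuous f) :
    ∃ a₁ ∈ her g hg, cfc f (a : A⁺¹) = ((f 0 : ℂ) • (1 : A⁺¹)) + (a₁ : A⁺¹) := by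
  refine ⟨cfcₙ (fun t => f t - f 0) a, cfcₙ_mem_her ha _, ?_⟩
  rw [real_cfcₙ_eq_cfc_inr a _ (by simp), cfc_sub _ _ _ (by fun_prop) (by fun_prop),
    cfc_const (f 0) (a : A⁺¹)]
  have : ((f 0 : ℂ) • (1 : A⁺¹)) = algebraMap ℝ A⁺¹ (f 0) := by
    rw [Algebra.algebraMap_eq_smul_one, Complex.coe_smul]
  rw [this]
  abel

/-- The commutator of two elements of the hereditary subalgebra lies in the ideal generated by
halves, if the first one is self-adjoint. -/
lemma commutator_mem_of_selfAdjoint {a b : A} (ha : a ∈ her g hg) (hasa : IsSelfAdjoint a)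
    (hb : b ∈ her g hg) : a * b - b * a ∈ idealOf (halves (g * g)) := by
  refine commutator_mem_of_orthogonal (isClosed_idealOf _) hasa ?_
  intro f f' hf hf' hff b' hb'
  have hb'mem : b' ∈ her g hg := by
    rcases hb' with rfl | rfl | rfl
    · exact hb
    · exact star_mem hb
    · exact mul_mem (star_mem hb) hb
  obtain ⟨a₁, ha₁, h₁⟩ := cfc_inr_mem_her ha hasa f hf
  obtain ⟨a₂, ha₂, h₂⟩ := cfc_inr_mem_her ha hasa f' hf'
  set c₁ : ℂ := (f 0 : ℂ) with hc₁
  set c₂ : ℂ := (f' 0 : ℂ) with hc₂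
  set z₀ : A := c₁ • c₂ • b' + c₁ • (b' * a₂) + c₂ • (a₁ * b') + a₁ * b' * a₂ with hz₀
  have hz₀mem : z₀ ∈ her g hg :=
    add_mem (add_mem (add_mem (SMulMemClass.smul_mem _ (SMulMemClass.smul_mem _ hb'mem))
      (SMulMemClass.smul_mem _ (mul_mem hb'mem ha₂)))
      (SMulMemClass.smul_mem _ (mul_mem ha₁ hb'mem))) (mul_mem (mul_mem ha₁ hb'mem) ha₂)
  have hP : cfc f (a : A⁺¹) * (b' : A⁺¹) * cfc f' (a : A⁺¹) = (z₀ : A⁺¹) := by
    rw [h₁, h₂, hz₀]
    simp only [inr_add, inr_mul, inr_smul, add_mul, mul_add, smul_mul_assoc, mul_smul_comm, one_mul,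
      mul_one, smul_add]
    rw [smul_comm c₂ c₁]
    abel
  have hGF : cfc f' (a : A⁺¹) * cfc f (a : A⁺¹) = 0 := by
    rw [← cfc_mul _ _ _ (by fun_prop) (by fun_prop)]
    have : (fun t => f' t * f t) = fun _ => (0 : ℝ) := by
      funext t; rw [mul_comm]; exact hff t
    rw [this]
    exact cfc_const_zero ℝ _
  have hzz : z₀ * z₀ = 0 := by
    apply inr_injective (R := ℂ)
    rw [inr_mul, ← hP]
    have : cfc f (a : A⁺¹) * (b' : A⁺¹) * cfc f' (a : A⁺¹) *
        (cfc f (a : A⁺¹) * (b' : A⁺¹) * cfc f' (a : A⁺¹))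
        = cfc f (a : A⁺¹) * (b' : A⁺¹) * (cfc f' (a : A⁺¹) * cfc f (a : A⁺¹)) * (b' : A⁺¹) *
          cfc f' (a : A⁺¹) := by noncomm_ring
    rw [this, hGF]
    simp
  exact ⟨z₀, mem_idealOf_halves_of_sq_zero hz₀mem hzz, hP⟩

/-- The commutator of two elements of the hereditary subalgebra lies in the ideal generated by
halves. -/
lemma commutator_mem {a b : A} (ha : a ∈ her g hg) (hb : b ∈ her g hg) :
    a * b - b * a ∈ idealOf (halves (g * g)) := by
  set a₁ : A := (2⁻¹ : ℂ) • (a + star a) with ha₁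
  set a₂ : A := (-(Complex.I * 2⁻¹) : ℂ) • (a - star a) with ha₂
  have e : a = a₁ + (Complex.I : ℂ) • a₂ := by
    rw [ha₁, ha₂, smul_smul, smul_add, smul_sub]
    have : (Complex.I * -(Complex.I * 2⁻¹) : ℂ) = 2⁻¹ := by
      have := Complex.I_mul_I
      linear_combination (-(2⁻¹ : ℂ)) * this
    rw [this]
    have e3 : a = (2⁻¹ : ℂ) • a + (2⁻¹ : ℂ) • a := by
      rw [← add_smul]; norm_num
    nth_rw 1 [e3]
    abel
  have h1sa : IsSelfAdjoint a₁ := by
    rw [IsSelfAdjoint, ha₁, star_smul, star_add, star_star, add_comm]; simp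
  have h2sa : IsSelfAdjoint a₂ := by
    rw [IsSelfAdjoint, ha₂, star_smul, star_sub, star_star]
    have : star (-(Complex.I * 2⁻¹) : ℂ) = Complex.I * 2⁻¹ := by
      simp [Complex.conj_I]
    rw [this, neg_smul, ← smul_neg, neg_sub]
  have h1m : a₁ ∈ her g hg :=
    SMulMemClass.smul_mem _ (add_mem ha (star_mem ha))
  have h2m : a₂ ∈ her g hg :=
    SMulMemClass.smul_mem _ (sub_mem ha (star_mem ha))
  have hc1 := commutator_mem_of_selfAdjoint h1m h1sa hb
  have hc2 := commutator_mem_of_selfAdjoint h2m h2sa hb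
  have e2 : a * b - b * a = (a₁ * b - b * a₁) + (Complex.I : ℂ) • (a₂ * b - b * a₂) := by
    rw [e]
    simp only [add_mul, mul_add, smul_mul_assoc, mul_smul_comm, smul_sub]
    abel
  rw [e2]
  exact TwoSidedIdeal.add_mem _ hc1 (smul_mem_of_isClosed (isClosed_idealOf _) _ hc2)

end Vale.Agent.Lib.P133
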