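import Mathlib
import Vale.Agent.Lib.P133.Reduced

namespace Vale.Agent.Lib.P133

open scoped CStarAlgebra

variable {A : Type*} [NonUnitalCStarAlgebra A]

section sos

variable {J I : Type*} [Fintype J] [Fintype I]

lemma sum_sq_identity (t : J → A) :
    ∑ j, ∑ k, (t j - t k) * (t j - t k)
      = (2 * Fintype.card J) • ∑ j, t j * t j - 2 • ((∑ j, t j) * (∑ j, t j)) := by
  have e1 : ∀ j k, (t j - t k) * (t j - t k) = t j * t j - t j * t k - t k * t j + t k * t k := by
    intro j k; noncomm_ring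
  simp only [e1, Finset.sum_add_distrib, Finset.sum_sub_distrib, Finset.sum_const,
    Finset.card_univ]
  have e2 : ∑ j, ∑ k, t j * t k = (∑ j, t j) * (∑ j, t j) := (Finset.sum_mul_sum _ _ _ _).symm
  have e3 : ∑ j, ∑ k, t k * t j = (∑ j, t j) * (∑ j, t j) := by
    rw [Finset.sum_comm]; exact e2
  rw [e2, e3, ← Finset.smul_sum]
  rw [two_mul, add_smul, two_smul]
  abel

lemma sum4_swap (F : J → J → I → I → A) :
    ∑ j, ∑ k, ∑ a, ∑ b, F j k a b = ∑ a, ∑ b, ∑ j, ∑ k, F j k a b := by
  calc ∑ j, ∑ k, ∑ a, ∑ b, F j k a b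
      = ∑ j, ∑ a, ∑ k, ∑ b, F j k a b :=
        Finset.sum_congr rfl fun j _ => Finset.sum_comm
    _ = ∑ a, ∑ j, ∑ k, ∑ b, F j k a b := Finset.sum_comm
    _ = ∑ a, ∑ j, ∑ b, ∑ k, F j k a b :=
        Finset.sum_congr rfl fun a _ => Finset.sum_congr rfl fun j _ => Finset.sum_comm
    _ = ∑ a, ∑ b, ∑ j, ∑ k, F j k a b :=
        Finset.sum_congr rfl fun a _ => Finset.sum_comm

lemma sum_mem_ideal {ι : Type*} {L : TwoSidedIdeal A} (s : Finset ι) (f : ι → A)
    (h : ∀ i ∈ s, f i ∈ L) : ∑ i ∈ s, f i ∈ L := by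
  classical
  induction s using Finset.induction_on with
  | empty => simp [L.zero_mem]
  | insert a s ha ih =>
    rw [Finset.sum_insert ha]
    exact L.add_mem (h a (Finset.mem_insert_self _ _))
      (ih fun i hi => h i (Finset.mem_insert_of_mem hi))

lemma nsmul_mem_ideal {L : TwoSidedIdeal A} (m : ℕ) {x : A} (h : x ∈ L) : m • x ∈ L := by
  induction m with
  | zero => simp [L.zero_mem]
  | succ m ih =>
    rw [succ_nsmul]
    exact L.add_mem ih h

end sos

variable [PartialOrder A] [StarOrderedRing A]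

section sos2

variable {J I : Type*} [Fintype J] [Fintype I] [DecidableEq J] [DecidableEq I]

/-- The exact positivity: with `t j = N j j`, `p • S - 2 • (T * T) ≥ 0`. -/
lemma sos_nonneg (d : J → I → A) (p : ℕ) (hp : p = 2 * Fintype.card J) :
    0 ≤ p • (∑ j, ∑ k, (∑ a, d j a * star (d k a)) * (∑ a, d k a * star (d j a)))
      - 2 • ((∑ j, ∑ a, d j a * star (d j a)) * (∑ j, ∑ a, d j a * star (d j a))) := by
  set N : J → J → A := fun j k => ∑ a, d j a * star (d k a) with hN
  have hNs : ∀ j k, star (N j k) = N k j := by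
    intro j k
    simp only [hN, star_sum, star_mul, star_star]
  set t : J → A := fun j => N j j with ht
  have hts : ∀ j, IsSelfAdjoint (t j) := fun j => by
    simp only [ht, IsSelfAdjoint, hNs]
  have h1 : 0 ≤ ∑ j, ∑ k, (t j - t k) * (t j - t k) := by
    refine Finset.sum_nonneg fun j _ => Finset.sum_nonneg fun k _ => ?_
    have hs : IsSelfAdjoint (t j - t k) := (hts j).sub (hts k)
    have := star_mul_self_nonneg (t j - t k)
    rwa [hs.star_eq] at this
  rw [sum_sq_identity, ← hp] at h1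
  have h2 : ∑ j, t j * t j ≤ ∑ j, ∑ k, N j k * N k j := by
    refine Finset.sum_le_sum fun j _ => ?_
    have : N j j * N j j = (fun k => N j k * N k j) j := rfl
    change N j j * N j j ≤ _
    rw [this]
    refine Finset.single_le_sum (f := fun k => N j k * N k j) (fun k _ => ?_) (Finset.mem_univ j)
    have := mul_star_self_nonneg (N j k)
    rwa [hNs] at this
  have h3 : p • ∑ j, t j * t j ≤ p • ∑ j, ∑ k, N j k * N k j := nsmul_le_nsmul_right h2 p
  change 0 ≤ p • (∑ j, ∑ k, N j k * N k j) - 2 • ((∑ j, t j) * ∑ j, t j)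
  exact h1.trans (sub_le_sub_right h3 _)

variable {L : TwoSidedIdeal A}

omit [PartialOrder A] [StarOrderedRing A] [DecidableEq J] [DecidableEq I] in
lemma sos_T_sub_W (d : J → I → A) (hc : ∀ j a, d j a * star (d j a) - star (d j a) * d j a ∈ L) :
    (∑ j, ∑ a, d j a * star (d j a)) - ∑ a, ∑ j, star (d j a) * d j a ∈ L := by
  rw [Finset.sum_comm (f := fun a j => star (d j a) * d j a), ← Finset.sum_sub_distrib]
  refine sum_mem_ideal _ _ fun j _ => ?_
  rw [← Finset.sum_sub_distrib]
  exact sum_mem_ideal _ _ fun a _ => hc j a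

omit [PartialOrder A] [StarOrderedRing A] [DecidableEq J] [DecidableEq I] in
lemma sos_S_sub_Z (d : J → I → A)
    (hc : ∀ j k a b, (d j a * star (d k a) * d k b) * star (d j b)
      - star (d j b) * (d j a * star (d k a) * d k b) ∈ L) :
    (∑ j, ∑ k, (∑ a, d j a * star (d k a)) * (∑ a, d k a * star (d j a)))
      - ∑ a, ∑ b, (∑ j, star (d j b) * d j a) * (∑ j, star (d j a) * d j b) ∈ L := by
  have e1 : (∑ j, ∑ k, (∑ a, d j a * star (d k a)) * (∑ a, d k a * star (d j a)))
      = ∑ a, ∑ b, ∑ j, ∑ k, (d j a * star (d k a) * d k b) * star (d j b) := by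
    rw [← sum4_swap]
    refine Finset.sum_congr rfl fun j _ => Finset.sum_congr rfl fun k _ => ?_
    rw [Finset.sum_mul_sum]
    refine Finset.sum_congr rfl fun a _ => Finset.sum_congr rfl fun b _ => ?_
    noncomm_ring
  have e2 : (∑ a, ∑ b, (∑ j, star (d j b) * d j a) * (∑ j, star (d j a) * d j b))
      = ∑ a, ∑ b, ∑ j, ∑ k, star (d j b) * (d j a * star (d k a) * d k b) := by
    refine Finset.sum_congr rfl fun a _ => Finset.sum_congr rfl fun b _ => ?_
    rw [Finset.sum_mul_sum]
    refine Finset.sum_congr rfl fun j _ => Finset.sum_congr rfl fun k _ => ?_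
    noncomm_ring
  rw [e1, e2, ← Finset.sum_sub_distrib]
  refine sum_mem_ideal _ _ fun a _ => ?_
  rw [← Finset.sum_sub_distrib]
  refine sum_mem_ideal _ _ fun b _ => ?_
  rw [← Finset.sum_sub_distrib]
  refine sum_mem_ideal _ _ fun j _ => ?_
  rw [← Finset.sum_sub_distrib]
  exact sum_mem_ideal _ _ fun k _ => hc j k a b

lemma le_nsmul_self {x : A} (hx : 0 ≤ x) {p : ℕ} (hp : 1 ≤ p) : x ≤ p • x := by
  have h : 0 ≤ (p - 1) • x := nsmul_nonneg hx _
  have e : p • x = x + (p - 1) • x := by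
    conv_lhs => rw [show p = 1 + (p - 1) by omega, add_smul, one_smul]
  rw [e]
  exact le_add_of_nonneg_right h

/-- The SOS estimate. -/
lemma sos_bound (hL : IsClosed (L : Set A)) {H : A} (hH : 0 ≤ H) (d : J → I → A)
    {p : ℕ} (hp1 : 1 ≤ p) (hpJ : p = 2 * Fintype.card J) (hpI : p = Fintype.card I)
    (hc1 : ∀ j a, d j a * star (d j a) - star (d j a) * d j a ∈ L)
    (hc2 : ∀ j k a b, (d j a * star (d k a) * d k b) * star (d j b)
      - star (d j b) * (d j a * star (d k a) * d k b) ∈ L)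
    {η : ℝ} (hη0 : 0 ≤ η) (hη1 : η ≤ 1)
    (hE : ∀ a b, ‖(∑ j, star (d j a) * d j b) - (if a = b then H else 0)‖ ≤ η) :
    dI L (H * H) ≤ ((p : ℝ) * (p * p * (2 * ‖H‖ + 1))
      + 2 * (p * (‖H‖ * p) + p * (p * ‖H‖) + p * p)) * η := by
  set M : I → I → A := fun a b => ∑ j, star (d j a) * d j b with hM
  set T : A := ∑ j, ∑ a, d j a * star (d j a) with hT
  set S : A := ∑ j, ∑ k, (∑ a, d j a * star (d k a)) * (∑ a, d k a * star (d j a)) with hS
  set W : A := ∑ a, M a a with hW
  set Z : A := ∑ a, ∑ b, M b a * M a b with hZ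
  have hTW : T - W ∈ L := sos_T_sub_W d hc1
  have hSZ : S - Z ∈ L := sos_S_sub_Z d hc2
  have hG : 0 ≤ p • S - 2 • (T * T) := sos_nonneg d p hpJ
  set e₁ : A := W - p • H with he₁
  set e₂ : A := Z - p • (H * H) with he₂
  have hp0 : (0 : ℝ) ≤ p := Nat.cast_nonneg p
  have hH0 : 0 ≤ ‖H‖ := norm_nonneg _
  have hMa : ∀ a, ‖M a a - H‖ ≤ η := fun a => by simpa using hE a a
  have hMab : ∀ a b, a ≠ b → ‖M a b‖ ≤ η := fun a b h => by simpa [h] using hE a b
  have hn1 : ‖e₁‖ ≤ p * η := by
    have : e₁ = ∑ a, (M a a - H) := by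
      rw [he₁, hW, Finset.sum_sub_distrib, Finset.sum_const, Finset.card_univ, hpI]
    rw [this]
    calc _ ≤ ∑ a : I, ‖M a a - H‖ := norm_sum_le _ _
      _ ≤ ∑ _a : I, η := Finset.sum_le_sum fun a _ => hMa a
      _ = p * η := by rw [Finset.sum_const, Finset.card_univ, hpI]; simp
  have hn2 : ‖e₂‖ ≤ p * p * (2 * ‖H‖ + 1) * η := by
    have e0 : e₂ = ∑ a, ∑ b, (M b a * M a b - if a = b then H * H else 0) := by
      rw [he₂, hZ]
      simp only [Finset.sum_sub_distrib, Finset.sum_ite_eq, Finset.mem_univ, if_true,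
        Finset.sum_const, Finset.card_univ]
      rw [hpI]
    have hterm : ∀ a b, ‖M b a * M a b - if a = b then H * H else 0‖ ≤ (2 * ‖H‖ + 1) * η := by
      intro a b
      by_cases hab : a = b
      · subst hab
        simp only [if_true]
        have e : M a a * M a a - H * H = (M a a - H) * (M a a - H) + H * (M a a - H)
            + (M a a - H) * H := by noncomm_ring
        rw [e]
        have h := hMa a
        calc _ ≤ ‖(M a a - H) * (M a a - H)‖ + ‖H * (M a a - H)‖ + ‖(M a a - H) * H‖ :=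
              norm_add₃_le
          _ ≤ ‖M a a - H‖ * ‖M a a - H‖ + ‖H‖ * ‖M a a - H‖ + ‖M a a - H‖ * ‖H‖ := by
              gcongr <;> exact norm_mul_le _ _
          _ ≤ η * η + ‖H‖ * η + η * ‖H‖ := by gcongr
          _ ≤ 1 * η + ‖H‖ * η + η * ‖H‖ := by gcongr
          _ = _ := by ring
      · simp only [hab, if_false, sub_zero]
        have h1 := hMab a b hab
        have h2 := hMab b a (Ne.symm hab)
        calc _ ≤ ‖M b a‖ * ‖M a b‖ := norm_mul_le _ _
          _ ≤ η * η := by gcongr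
          _ ≤ 1 * η := by gcongr
          _ ≤ _ := by
            have : 0 ≤ 2 * ‖H‖ * η := by positivity
            nlinarith
    rw [e0]
    calc _ ≤ ∑ a : I, ‖∑ b, (M b a * M a b - if a = b then H * H else 0)‖ := norm_sum_le _ _
      _ ≤ ∑ a : I, ∑ b : I, ‖M b a * M a b - if a = b then H * H else 0‖ :=
          Finset.sum_le_sum fun a _ => norm_sum_le _ _
      _ ≤ ∑ _a : I, ∑ _b : I, (2 * ‖H‖ + 1) * η :=
          Finset.sum_le_sum fun a _ => Finset.sum_le_sum fun b _ => hterm a b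
      _ = _ := by simp only [Finset.sum_const, Finset.card_univ, ← hpI]; simp; ring
  set e₃ : A := p • e₂ - 2 • (p • (H * e₁) + p • (e₁ * H) + e₁ * e₁) with he₃
  have hn3 : ‖e₃‖ ≤ ((p : ℝ) * (p * p * (2 * ‖H‖ + 1))
      + 2 * (p * (‖H‖ * p) + p * (p * ‖H‖) + p * p)) * η := by
    have h1 : ‖p • e₂‖ ≤ p * (p * p * (2 * ‖H‖ + 1) * η) :=
      norm_nsmul_le.trans (by gcongr)
    have h2 : ‖p • (H * e₁)‖ ≤ p * (‖H‖ * (p * η)) :=
      norm_nsmul_le.trans (by
        gcongr
        exact (norm_mul_le _ _).trans (by gcongr))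
    have h3 : ‖p • (e₁ * H)‖ ≤ p * ((p * η) * ‖H‖) :=
      norm_nsmul_le.trans (by
        gcongr
        exact (norm_mul_le _ _).trans (by gcongr))
    have h4 : ‖e₁ * e₁‖ ≤ (p * η) * (p * η) := (norm_mul_le _ _).trans (by gcongr)
    have h5 : ‖(2 : ℕ) • (p • (H * e₁) + p • (e₁ * H) + e₁ * e₁)‖
        ≤ 2 * (p * (‖H‖ * (p * η)) + p * ((p * η) * ‖H‖) + (p * η) * (p * η)) := by
      refine norm_nsmul_le.trans ?_
      push_cast
      gcongr
      exact norm_add₃_le.trans (by gcongr)
    have h6 : (p * η) * (p * η) ≤ p * p * η := by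
      have : p * p * η * η ≤ p * p * η * 1 := by gcongr
      nlinarith
    calc ‖e₃‖ ≤ ‖p • e₂‖ + ‖(2 : ℕ) • (p • (H * e₁) + p • (e₁ * H) + e₁ * e₁)‖ :=
          norm_sub_le _ _
      _ ≤ p * (p * p * (2 * ‖H‖ + 1) * η)
          + 2 * (p * (‖H‖ * (p * η)) + p * ((p * η) * ‖H‖) + (p * η) * (p * η)) := add_le_add h1 h5
      _ ≤ p * (p * p * (2 * ‖H‖ + 1) * η)
          + 2 * (p * (‖H‖ * (p * η)) + p * ((p * η) * ‖H‖) + p * p * η) := by gcongr
      _ = _ := by ring
  have hHH : 0 ≤ H * H := by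
    have := star_mul_self_nonneg H
    rwa [hH.isSelfAdjoint.star_eq] at this
  set G : A := p • S - 2 • (T * T) with hGdef
  set Q : A := G + (p * p) • (H * H) with hQ
  have hQe : Q - e₃ ∈ L := by
    have hZe : Z = p • (H * H) + e₂ := by rw [he₂]; abel
    have hWe : W = p • H + e₁ := by rw [he₁]; abel
    have e0 : p • Z - 2 • (W * W) + (p * p) • (H * H) = e₃ := by
      rw [hZe, hWe, he₃]
      simp only [add_mul, mul_add, smul_mul_assoc, mul_smul_comm, smul_add, smul_smul]
      module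
    have e1 : Q - e₃ = p • (S - Z) - 2 • ((T - W) * T + W * (T - W)) := by
      rw [← e0, hQ, hGdef]
      simp only [sub_mul, mul_sub, smul_sub]
      abel
    rw [e1, sub_eq_add_neg]
    refine L.add_mem (nsmul_mem_ideal _ hSZ) (L.neg_mem (nsmul_mem_ideal _ ?_))
    exact L.add_mem (L.mul_mem_right _ _ hTW) (L.mul_mem_left _ _ hTW)
  have h1 : dI L Q ≤ dI L e₃ := dI_of_mem_sub hQe
  have h2 : dI L e₃ ≤ ‖e₃‖ := dI_le_norm _
  have h3 : H * H ≤ Q := by
    have h4 : H * H ≤ (p * p) • (H * H) := le_nsmul_self hHH (Nat.mul_pos hp1 hp1)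
    exact h4.trans (le_add_of_nonneg_left hG)
  have h4 : dI L (H * H) ≤ dI L Q := dI_mono hL hHH h3
  exact h4.trans (h1.trans (h2.trans hn3))

end sos2

/-- The local statement: under `n`-fold proper infiniteness of `g * g`, `g` belongs to the
ideal generated by the halves of `g * g`. -/
theorem self_mem_idealOf_halves {g : A} (hg : 0 ≤ g) {n : ℕ} (hn : 0 < n)
    (hpi : AmpProperlyInfinite n (g * g)) : g ∈ idealOf (halves (g * g)) := by
  have hgs : IsSelfAdjoint g := hg.isSelfAdjoint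
  set L := idealOf (halves (g * g)) with hLdef
  have hL : IsClosed (L : Set A) := isClosed_idealOf _
  set h : A := g * g with hh
  set H : A := h * h with hHdef
  have hh0 : 0 ≤ h := by
    have := star_mul_self_nonneg g
    rwa [hgs.star_eq] at this
  have hH0 : 0 ≤ H := by
    have := star_mul_self_nonneg h
    rwa [hh0.isSelfAdjoint.star_eq] at this
  have hcomm : ∀ u v, u ∈ her g hgs → v ∈ her g hgs → u * v - v * u ∈ L := fun u v hu hv =>
    commutator_mem hu hv
  set p : ℕ := 2 * n with hp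
  have hp1 : 1 ≤ p := by omega
  set K : ℝ := ((p : ℝ) * (p * p * (2 * ‖H‖ + 1))
      + 2 * (p * (‖H‖ * p) + p * (p * ‖H‖) + p * p)) with hK
  have hK0 : 0 ≤ K := by positivity
  have hbound : ∀ η : ℝ, 0 < η → η ≤ 1 → dI L (H * H) ≤ K * η := by
    intro η hη0 hη1
    have hgn : 0 ≤ ‖g‖ := norm_nonneg _
    set ε : ℝ := η / (‖g‖ * ‖g‖ + 1) with hε
    have hε0 : 0 < ε := by positivity
    obtain ⟨x, hx⟩ := hpi ε hε0
    set d : Fin n → Fin (2 * n) → A := fun j a => g * x j a * g with hd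
    have hds : ∀ j a, star (d j a) = g * star (x j a) * g := by
      intro j a
      simp [hd, star_mul, hgs.star_eq, mul_assoc]
    have hdmem : ∀ j a, d j a ∈ her g hgs := by
      intro j a
      rw [mem_her_iff]
      intro δ hδ
      exact ⟨x j a, by simp [hd, hδ]⟩
    have hE : ∀ a b, ‖(∑ j, star (d j a) * d j b) - (if a = b then H else 0)‖ ≤ η := by
      intro a b
      have e : (∑ j, star (d j a) * d j b) - (if a = b then H else 0)
          = g * (∑ j, star (x j a) * h * x j b - (if a = b then h else 0)) * g := by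
        rw [mul_sub, sub_mul, Finset.mul_sum, Finset.sum_mul]
        congr 1
        · refine Finset.sum_congr rfl fun j _ => ?_
          rw [hds, hd, hh]
          noncomm_ring
        · by_cases hab : a = b
          · simp only [hab, if_true, hHdef, hh]
            noncomm_ring
          · simp [hab]
      rw [e]
      have h1 := (hx a b).le
      calc _ ≤ ‖g‖ * ‖∑ j, star (x j a) * h * x j b - (if a = b then h else 0)‖ * ‖g‖ :=
            norm_mul₃_le
        _ ≤ ‖g‖ * ε * ‖g‖ := by gcongr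
        _ = (‖g‖ * ‖g‖) / (‖g‖ * ‖g‖ + 1) * η := by rw [hε]; field_simp
        _ ≤ 1 * η := by
            gcongr
            rw [div_le_one (by positivity)]
            linarith
        _ = η := one_mul _
    have hsd : ∀ j a, star (d j a) ∈ her g hgs := fun j a => star_mem (hdmem j a)
    have := sos_bound hL hH0 d (p := p) hp1 (by simp [hp]) (by simp [hp])
      (fun j a => hcomm _ _ (hdmem j a) (hsd j a))
      (fun j k a b => hcomm _ _ (mul_mem (mul_mem (hdmem j a) (hsd k a)) (hdmem k b)) (hsd j b))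
      hη0.le hη1 hE
    exact this
  have h0 : dI L (H * H) = 0 := by
    refine le_antisymm ?_ (dI_nonneg _)
    refine le_of_forall_pos_le_add fun ε hε => ?_
    set η : ℝ := min 1 (ε / (K + 1)) with hη
    have hη0 : 0 < η := lt_min one_pos (by positivity)
    have h1 := hbound η hη0 (min_le_left _ _)
    have h2 : K * η ≤ ε := by
      have h3 : η ≤ ε / (K + 1) := min_le_right _ _
      calc K * η ≤ (K + 1) * η := by
            have : 0 ≤ η := hη0.le
            nlinarith
        _ ≤ (K + 1) * (ε / (K + 1)) := by gcongr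
        _ = ε := by field_simp
    linarith
  have h1 : H * H ∈ L := (dI_eq_zero_iff hL).mp h0
  have h2 : H ∈ L := mem_of_mul_self_mem hL hH0.isSelfAdjoint h1
  have h3 : h ∈ L := mem_of_mul_self_mem hL hh0.isSelfAdjoint h2
  exact mem_of_mul_self_mem hL hgs h3

end Vale.Agent.Lib.P133
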