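import Mathlib
import Vale.Agent.Lib.P133.Sos

namespace Vale.Agent.Lib.P133

open scoped CStarAlgebra

variable {A : Type*} [NonUnitalCStarAlgebra A] [PartialOrder A] [StarOrderedRing A]

/-- The Global Glimm property, in the form used here: for each `h ≥ 0` and `δ > 0` there is a
`y ≥ 0` with `y ⊕ y ≾ h` and `(h - δ)₊ ≾ y ⊕ ... ⊕ y`. -/
def GlobalGlimm (A : Type*) [NonUnitalCStarAlgebra A] [PartialOrder A] : Prop :=
  ∀ h : A, 0 ≤ h → ∀ δ > (0 : ℝ), ∃ y : A, 0 ≤ y ∧ CLE (Amp y 2) (Amp h 1) ∧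
    ∃ M : ℕ, CLE (Amp (cut δ h) 1) (Amp y M)

lemma cle_cut_self {h : A} (hh : 0 ≤ h) {δ : ℝ} (hδ : 0 < δ) :
    ∃ M, CLE (Amp (cut δ h) 1) (Amp h M) :=
  exists_cle_cut_of_norm_lt (s := h) hh hh (subset_idealOf rfl) (by simpa using hδ)

/-- Iterating the halving. -/
lemma glimm_iterate (hG : GlobalGlimm A) (r : ℕ) : ∀ h : A, 0 ≤ h → ∀ δ > (0 : ℝ), ∃ y : A, 0 ≤ y ∧
    CLE (Amp y (2 ^ r)) (Amp h 1) ∧ ∃ M : ℕ, CLE (Amp (cut δ h) 1) (Amp y M) := by
  induction r with
  | zero =>
    intro h hh δ hδ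
    refine ⟨h, hh, ?_, cle_cut_self hh hδ⟩
    have e : 2 ^ 0 = 1 := rfl
    rw [e]
    exact CLE.refl _
  | succ r ih =>
    intro h hh δ hδ
    obtain ⟨y, hy, hyr, M, hM⟩ := ih h hh (δ / 2) (by positivity)
    set c : A := cut (δ / 2) h with hc
    have hc0 : 0 ≤ c := cut_nonneg _ _
    rw [cle_one_iff] at hM
    obtain ⟨w, hw0⟩ := hM (δ / 4) (by positivity)
    have hw : ‖∑ i, star (w i) * y * w i - c‖ < δ / 4 := hw0
    set C : ℝ := ∑ i, ‖w i‖ * ‖w i‖ with hC
    have hC0 : 0 ≤ C := Finset.sum_nonneg fun i _ => by positivity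
    set δ' : ℝ := (δ / 4) / (C + 1) with hδ'
    have hδ'0 : 0 < δ' := by positivity
    obtain ⟨y', hy', hy'2, M', hM'⟩ := hG y hy δ' hδ'0
    refine ⟨y', hy', ?_, ?_⟩
    · have h1 := amp_mul (2 ^ r) hy'2
      have e1 : 2 ^ (r + 1) = 2 * 2 ^ r := by ring
      have e2 : 1 * 2 ^ r = 2 ^ r := one_mul _
      rw [e1]
      rw [e2] at h1
      exact h1.trans hyr
    · have hmem : cut δ' y ∈ idealOf {y'} := mem_idealOf_of_cle hM'
      set s : A := ∑ i, star (w i) * cut δ' y * w i with hs
      have hsmem : s ∈ idealOf {y'} := by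
        refine sum_mem_ideal _ _ fun i _ => ?_
        exact (idealOf {y'}).mul_mem_right _ _ ((idealOf {y'}).mul_mem_left _ _ hmem)
      have hn : ‖c - s‖ < δ / 2 := by
        have e : c - s = (∑ i, star (w i) * y * w i - s) - (∑ i, star (w i) * y * w i - c) := by
          abel
        have e2 : ∑ i, star (w i) * y * w i - s = ∑ i, star (w i) * (y - cut δ' y) * w i := by
          rw [hs, ← Finset.sum_sub_distrib]
          refine Finset.sum_congr rfl fun i _ => ?_
          noncomm_ring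
        have hn1 : ‖∑ i, star (w i) * y * w i - s‖ ≤ C * δ' := by
          rw [e2, hC, Finset.sum_mul]
          refine (norm_sum_le _ _).trans (Finset.sum_le_sum fun i _ => ?_)
          have h3 : ‖y - cut δ' y‖ ≤ δ' := by
            rw [norm_sub_rev]; exact norm_cut_sub_le hδ'0.le hy
          calc _ ≤ ‖star (w i)‖ * ‖y - cut δ' y‖ * ‖w i‖ := norm_mul₃_le
            _ ≤ ‖w i‖ * δ' * ‖w i‖ := by rw [norm_star]; gcongr
            _ = _ := by ring
        have hn2 : C * δ' ≤ δ / 4 := by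
          rw [hδ']
          have : C * ((δ / 4) / (C + 1)) = (C / (C + 1)) * (δ / 4) := by field_simp
          rw [this]
          have h4 : C / (C + 1) ≤ 1 := by
            rw [div_le_one (by positivity)]; linarith
          nlinarith [show (0 : ℝ) < δ / 4 by positivity]
        rw [e]
        calc _ ≤ ‖∑ i, star (w i) * y * w i - s‖ + ‖∑ i, star (w i) * y * w i - c‖ :=
              norm_sub_le _ _
          _ < δ / 4 + δ / 4 := by linarith [hn1, hn2, hw]
          _ = δ / 2 := by ring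
      obtain ⟨M'', hM''⟩ := exists_cle_cut_of_norm_lt hc0 hy' hsmem hn
      refine ⟨M'', ?_⟩
      have e3 : cut (δ / 2) c = cut δ h := by
        rw [hc, cut_cut (by positivity) (by positivity) hh]
        congr 1
        ring
      rwa [e3] at hM''

/-- The reduction: a weakly purely infinite algebra with the Global Glimm property is purely
infinite. -/
theorem purelyInfinite_of_globalGlimm (hw : WeaklyPurelyInfinite A) (hG : GlobalGlimm A) :
    PurelyInfinite A := by
  obtain ⟨n, hn, hpi⟩ := hw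
  intro h hh
  rw [ampProperlyInfinite_iff]
  change CLE (Amp h 2) (Amp h 1)
  refine CLE.of_approx fun ε hε => ?_
  refine ⟨fun _ => cut (ε / 2) h, fun a => ?_, ?_⟩
  · have := norm_cut_sub_le (δ := ε / 2) (by positivity) hh
    simp only [Amp]
    linarith
  obtain ⟨y, hy, hyr, M, hM⟩ := glimm_iterate hG n h hh (ε / 2) (by positivity)
  have h1 : CLE (Amp y n) (Amp h 1) := amp_mono (Nat.lt_two_pow_self.le) hyr
  have h2 : CLE (Amp (cut (ε / 2) h) 2) (Amp y (M * 2)) := by
    have := amp_mul 2 hM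
    simpa using this
  have h3 : CLE (Amp y (M * 2)) (Amp y n) := by
    have h4 := amp_iter ((ampProperlyInfinite_iff n y).mp (hpi y hy)) (M * 2)
    refine (amp_le y ?_).trans h4
    have h5 : M * 2 < 2 ^ (M * 2) := Nat.lt_two_pow_self
    have h6 : 2 ^ (M * 2) ≤ 2 ^ (M * 2) * n := Nat.le_mul_of_pos_right _ hn
    omega
  exact (h2.trans h3).trans h1

omit [StarOrderedRing A] in
lemma zero_mem_halves (h : A) : (0 : A) ∈ halves h := by
  refine ⟨le_rfl, ?_⟩
  intro ε hε
  refine ⟨fun _ _ => 0, fun a b => ?_⟩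
  simp [Amp, hε]

/-- Under the chain condition, a finite family of elements of a set directed by ideals has an
upper bound. -/
lemma exists_common_of_chain (hch : IdealsLinearlyOrdered A) {S : Set A} {y0 : A} (hy0 : y0 ∈ S)
    (M : ℕ) (z : Fin M → A) (hz : ∀ i, z i ∈ S) :
    ∃ y ∈ S, ∀ i, z i ∈ idealOf {y} := by
  induction M with
  | zero => exact ⟨y0, hy0, fun i => i.elim0⟩
  | succ M ih =>
    obtain ⟨y, hy, hyz⟩ := ih (fun i => z i.succ) (fun i => hz _)
    rcases hch (idealOf {y}) (idealOf {z 0}) (isClosed_idealOf _) (isClosed_idealOf _) with hle | hle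
    · refine ⟨z 0, hz 0, fun i => ?_⟩
      refine Fin.cases ?_ (fun i => ?_) i
      · exact subset_idealOf rfl
      · exact hle (hyz i)
    · refine ⟨y, hy, fun i => ?_⟩
      refine Fin.cases ?_ (fun i => ?_) i
      · exact hle (subset_idealOf rfl)
      · exact hyz i

/-- Under the chain condition, weak pure infiniteness gives the Global Glimm property. -/
theorem globalGlimm_of_chain (hch : IdealsLinearlyOrdered A) (hw : WeaklyPurelyInfinite A) :
    GlobalGlimm A := by
  obtain ⟨n, hn, hpi⟩ := hw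
  intro h hh δ hδ
  set g : A := CFC.sqrt h with hg
  have hg0 : 0 ≤ g := CFC.sqrt_nonneg h
  have hgg : g * g = h := CFC.sqrt_mul_sqrt_self h hh
  have h1 : g ∈ idealOf (halves (g * g)) :=
    self_mem_idealOf_halves hg0 hn (hpi _ (by
      have := star_mul_self_nonneg g
      rwa [hg0.isSelfAdjoint.star_eq] at this))
  rw [hgg] at h1
  have h2 : h ∈ idealOf (halves h) := by
    have h3 : g * g ∈ idealOf (halves h) := (idealOf (halves h)).mul_mem_left _ _ h1
    rwa [hgg] at h3
  rw [mem_idealOf_iff] at h2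
  obtain ⟨M, u, z, v, hz, hm⟩ := h2 δ hδ
  obtain ⟨y, hy, hyz⟩ := exists_common_of_chain hch (zero_mem_halves h) M z hz
  have hs : ∑ i, u i * z i * v i ∈ idealOf {y} :=
    sum_mem_ideal _ _ fun i _ =>
      (idealOf {y}).mul_mem_right _ _ ((idealOf {y}).mul_mem_left _ _ (hyz i))
  obtain ⟨M', hM'⟩ := exists_cle_cut_of_norm_lt hh hy.1 hs hm
  exact ⟨y, hy.1, hy.2, M', hM'⟩

/-- The main theorem of this file: if the closed two-sided ideals of `A` are linearly ordered by
inclusion, then a weakly purely infinite `A` is purely infinite. -/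
theorem purelyInfinite_of_chain (hch : IdealsLinearlyOrdered A) (hw : WeaklyPurelyInfinite A) :
    PurelyInfinite A :=
  purelyInfinite_of_globalGlimm hw (globalGlimm_of_chain hch hw)

end Vale.Agent.Lib.P133
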