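import Mathlib
import Vale.Agent.Lib.P133.Glimm

namespace Vale.Agent.Lib.P133

open scoped CStarAlgebra

variable {A : Type*} [NonUnitalCStarAlgebra A] [PartialOrder A] [StarOrderedRing A]

/-- The auxiliary function `t / max (t^2, τ^2)`. -/
noncomputable def muF (τ t : ℝ) : ℝ := t / max (t * t) (τ * τ)

lemma muF_continuous {τ : ℝ} (hτ : 0 < τ) : Continuous (muF τ) := by
  unfold muF
  refine Continuous.div continuous_id (by fun_prop) fun t => ?_
  have : 0 < τ * τ := by positivity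
  exact (lt_of_lt_of_le this (le_max_right _ _)).ne'

lemma muF_zero {τ : ℝ} : muF τ 0 = 0 := by simp [muF]

lemma max_mul_pos {τ : ℝ} (hτ : 0 < τ) (t : ℝ) : 0 < max (t * t) (τ * τ) :=
  lt_of_lt_of_le (by positivity) (le_max_right _ _)

lemma abs_muF_le {τ : ℝ} (hτ : 0 < τ) (t : ℝ) : |muF τ t| ≤ 1 / τ := by
  unfold muF
  rw [abs_div, abs_of_pos (max_mul_pos hτ t), div_le_div_iff₀ (max_mul_pos hτ t) hτ, one_mul]
  rcases le_total |t| τ with h | h
  · calc |t| * τ ≤ τ * τ := by gcongr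
      _ ≤ _ := le_max_right _ _
  · calc |t| * τ ≤ |t| * |t| := by gcongr
      _ = t * t := abs_mul_abs_self t
      _ ≤ _ := le_max_left _ _

lemma mul_muF_of_ge {τ t : ℝ} (hτ : 0 < τ) (h : τ ≤ t) : t * muF τ t = 1 := by
  unfold muF
  have ht : 0 < t := lt_of_lt_of_le hτ h
  have : τ * τ ≤ t * t := by gcongr
  rw [max_eq_left this]
  field_simp

/-- `t μ(t)^2 ≤ 1/τ` for `t ≥ 0`. -/
lemma mul_muF_sq_le {τ t : ℝ} (hτ : 0 < τ) (ht : 0 ≤ t) : t * (muF τ t * muF τ t) ≤ 1 / τ := by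
  have h0 := max_mul_pos hτ t
  unfold muF
  have e : t * (t / max (t * t) (τ * τ) * (t / max (t * t) (τ * τ)))
      = (t * t * t) / (max (t * t) (τ * τ) * max (t * t) (τ * τ)) := by
    field_simp
  rw [e, div_le_div_iff₀ (by positivity) hτ, one_mul]
  rcases le_total t τ with h | h
  · have h1 : τ * τ ≤ max (t * t) (τ * τ) := le_max_right _ _
    have h2 : t * t * t * τ ≤ τ * τ * (τ * τ) := by
      have : t * t ≤ τ * τ := by gcongr
      have h3 : t * τ ≤ τ * τ := by gcongr
      nlinarith [mul_nonneg ht hτ.le]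
    calc _ ≤ _ := h2
      _ ≤ _ := by gcongr
  · have h1 : t * t ≤ max (t * t) (τ * τ) := le_max_left _ _
    have h2 : t * t * t * τ ≤ t * t * (t * t) := by
      have h3 : 0 ≤ t * t * t := by positivity
      nlinarith [mul_le_mul_of_nonneg_left h h3]
    calc _ ≤ _ := h2
      _ ≤ _ := by gcongr

omit [PartialOrder A] [StarOrderedRing A] in
/-- Comparison inside the ideal generated by one element, in a purely infinite algebra. -/
lemma exists_conj_of_mem [PartialOrder A] [StarOrderedRing A] (hpi : PurelyInfinite A) {z h : A}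
    (hz : 0 ≤ z) (hh : 0 ≤ h) (hm : h ∈ idealOf {z}) {δ η : ℝ} (hδ : 0 < δ) (hη : 0 < η) :
    ∃ c, ‖star c * z * c - cut δ h‖ < η := by
  obtain ⟨M, hM⟩ := exists_cle_cut_of_norm_lt hh hz hm (by simpa using hδ)
  have h1 : CLE (Amp z (2 * 1)) (Amp z 1) := (ampProperlyInfinite_iff 1 z).mp (hpi z hz)
  have h2 := amp_iter h1 M
  have h3 : CLE (Amp z M) (Amp z 1) := by
    refine (amp_le z ?_).trans h2
    have : M < 2 ^ M := Nat.lt_two_pow_self
    omega
  have h4 := hM.trans h3
  rw [cle_one_iff] at h4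
  obtain ⟨w, hw⟩ := h4 η hη
  refine ⟨w 0, ?_⟩
  simpa [Amp, Fin.sum_univ_one] using hw

section calc_lemmas

variable {a : A}

/-- `N_τ(a) = μ_τ(a)`. -/
noncomputable def nuE (τ : ℝ) (a : A) : A := cfcₙ (muF τ) a

lemma nuE_selfAdjoint (τ : ℝ) (a : A) : IsSelfAdjoint (nuE τ a) := by
  unfold nuE
  exact cfcₙ_predicate _ _

lemma norm_nuE_le {τ : ℝ} (hτ : 0 < τ) (a : A) : ‖nuE τ a‖ ≤ 1 / τ := by
  unfold nuE
  refine norm_cfcₙ_le fun t _ => ?_
  rw [Real.norm_eq_abs]
  exact abs_muF_le hτ t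

/-- `a μ(a) (a - τ)₊ = (a - τ)₊`. -/
lemma mul_nuE_mul_cut {τ : ℝ} (hτ : 0 < τ) (ha : 0 ≤ a) : a * nuE τ a * cut τ a = cut τ a := by
  have hc := muF_continuous hτ
  have e1 : a * nuE τ a = cfcₙ (fun t => t * muF τ t) a := by
    unfold nuE
    rw [cfcₙ_mul (fun t : ℝ => t) (muF τ) a (hg0 := muF_zero), cfcₙ_id' ℝ a]
  have h0 : (fun t : ℝ => t * muF τ t) 0 = 0 := by simp
  have hf0 : (fun t : ℝ => max (t - τ) 0) 0 = 0 := by simp [hτ.le]
  rw [e1]
  unfold cut
  rw [← cfcₙ_mul (fun t : ℝ => t * muF τ t) (fun t : ℝ => max (t - τ) 0) a (hf0 := h0) (hg0 := hf0)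
    (hf := by fun_prop) (hg := by fun_prop)]
  refine cfcₙ_congr fun t _ => ?_
  rcases le_total (t - τ) 0 with h | h
  · simp [max_eq_right h]
  · rw [mul_muF_of_ge hτ (by linarith), one_mul]

omit [PartialOrder A] [StarOrderedRing A] in
lemma nuE_comm [PartialOrder A] [StarOrderedRing A] {τ : ℝ} (hτ : 0 < τ) (ha : 0 ≤ a) :
    a * nuE τ a = nuE τ a * a := by
  unfold nuE
  have h0 := cfcₙ_mul (fun t : ℝ => t) (muF τ) a (hg0 := muF_zero)
    (hg := (muF_continuous hτ).continuousOn)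
  have h1 := cfcₙ_mul (muF τ) (fun t : ℝ => t) a (hf0 := muF_zero)
    (hf := (muF_continuous hτ).continuousOn)
  rw [cfcₙ_id' ℝ a] at h0 h1
  rw [← h0, ← h1]
  congr 1
  funext t
  ring

/-- `(a - τ)₊ a μ(a) = (a - τ)₊`. -/
lemma cut_mul_mul_nuE {τ : ℝ} (hτ : 0 < τ) (ha : 0 ≤ a) : cut τ a * (a * nuE τ a) = cut τ a := by
  have := congrArg star (mul_nuE_mul_cut hτ ha)
  have hc : star (cut τ a) = cut τ a := (cut_nonneg τ a).isSelfAdjoint.star_eq
  rw [star_mul, star_mul, hc, (nuE_selfAdjoint τ a).star_eq, ha.isSelfAdjoint.star_eq] at this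
  rw [nuE_comm hτ ha]
  exact this

end calc_lemmas

/-- The exact orthogonality lemma. -/
lemma exact_pair {P : TwoSidedIdeal A} (hP : IsClosed (P : Set A)) {w : A} (hw : w ∉ P)
    (hpi : CLE (Amp (star w * w) (2 * 1)) (Amp (star w * w) 1)) :
    ∃ c₁ c₂ : A, star (w * c₁) * (w * c₂) = 0 ∧ w * c₁ ∉ P ∧ w * c₂ ∉ P := by
  set r : A := star w * w with hr
  have hrP : r ∉ P := fun h => hw (mem_of_star_mul_self_mem hP h)
  set d : ℝ := dI P r with hd
  have hd0 : 0 < d := by
    refine lt_of_le_of_ne (dI_nonneg _) fun h => hrP ?_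
    exact (dI_eq_zero_iff hP).mp h.symm
  set τ : ℝ := d / 2 with hτ
  have hτ0 : 0 < τ := by positivity
  set R : ℝ := ‖r‖ + 1 with hR
  have hR1 : 1 ≤ R := by have := norm_nonneg r; linarith
  set κ : ℝ := R / τ with hκ
  have hκ0 : 0 < κ := by positivity
  set η : ℝ := min 1 (d / (κ * κ + 3)) with hη
  have hη0 : 0 < η := lt_min one_pos (by positivity)
  have hη1 : η ≤ 1 := min_le_left _ _
  have hη2 : η * (κ * κ + 3) ≤ d := by
    have : η ≤ d / (κ * κ + 3) := min_le_right _ _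
    rwa [le_div_iff₀ (by positivity)] at this
  obtain ⟨x, hx⟩ := hpi η hη0
  set x₁ : A := x 0 ⟨0, by norm_num⟩ with hx₁
  set x₂ : A := x 0 ⟨1, by norm_num⟩ with hx₂
  have h11 : ‖star x₁ * r * x₁ - r‖ < η := by
    have := hx ⟨0, by norm_num⟩ ⟨0, by norm_num⟩
    rw [Fin.sum_univ_one, if_pos rfl] at this
    exact this
  have h22 : ‖star x₂ * r * x₂ - r‖ < η := by
    have := hx ⟨1, by norm_num⟩ ⟨1, by norm_num⟩
    rw [Fin.sum_univ_one, if_pos rfl] at this
    exact this
  have h12 : ‖star x₁ * r * x₂‖ < η := by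
    have := hx ⟨0, by norm_num⟩ ⟨1, by norm_num⟩
    rw [Fin.sum_univ_one, if_neg (by simp), sub_zero] at this
    exact this
  set w₁ : A := w * x₁ with hw₁
  set w₂ : A := w * x₂ with hw₂
  have e11 : star w₁ * w₁ = star x₁ * r * x₁ := by
    simp only [hw₁, hr, star_mul, mul_assoc]
  have e22 : star w₂ * w₂ = star x₂ * r * x₂ := by
    simp only [hw₂, hr, star_mul, mul_assoc]
  have e12 : star w₁ * w₂ = star x₁ * r * x₂ := by
    simp only [hw₁, hw₂, hr, star_mul, mul_assoc]
  set a : A := w₁ * star w₁ with ha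
  have ha0 : 0 ≤ a := mul_star_self_nonneg w₁
  set N : A := nuE τ a with hN
  set C : A := cut τ a with hC
  have hAC : a * N * C = C := mul_nuE_mul_cut hτ0 ha0
  have hCA : C * (a * N) = C := cut_mul_mul_nuE hτ0 ha0
  -- a bound for the norm of `w₁`
  have hw₁R : ‖w₁‖ ≤ R := by
    have h1 : ‖w₁‖ * ‖w₁‖ = ‖star w₁ * w₁‖ := (CStarRing.norm_star_mul_self).symm
    have h2 : ‖star w₁ * w₁‖ ≤ R := by
      have h3 : star w₁ * w₁ = (star x₁ * r * x₁ - r) + r := by rw [e11]; abel
      rw [h3]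
      calc _ ≤ ‖star x₁ * r * x₁ - r‖ + ‖r‖ := norm_add_le _ _
        _ ≤ R := by rw [hR]; linarith
    have h4 := norm_nonneg w₁
    nlinarith
  -- the general estimate comparing `dI`
  have hd_le : ∀ u : A, ‖star u * u - r‖ < η → d ≤ dI P u ^ 2 + η := by
    intro u hu
    have h1 : r = star u * u + (r - star u * u) := by abel
    have h2 : d ≤ dI P (star u * u) + dI P (r - star u * u) := by
      rw [hd]
      conv_lhs => rw [h1]
      exact dI_add_le _ _
    have h3 : dI P (r - star u * u) ≤ ‖r - star u * u‖ := dI_le_norm _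
    rw [norm_sub_rev] at h3
    rw [dI_mul_star_self hP] at h2
    linarith
  refine ⟨x₁ * (star w₁ * (N * C) * w₁), x₂ - x₁ * (star w₁ * N * w₂), ?_, ?_, ?_⟩
  · have e1 : w * (x₁ * (star w₁ * (N * C) * w₁)) = C * w₁ := by
      conv_rhs => rw [← hAC]
      simp only [ha, hw₁, mul_assoc]
    have e2 : w * (x₂ - x₁ * (star w₁ * N * w₂)) = w₂ - a * N * w₂ := by
      simp only [ha, hw₁, hw₂, mul_sub, mul_assoc]
    rw [e1, e2, star_mul, (cut_nonneg τ a).isSelfAdjoint.star_eq, mul_assoc, mul_sub]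
    have e3 : C * (a * N * w₂) = C * w₂ := by
      rw [← mul_assoc, hCA]
    rw [e3, sub_self, mul_zero]
  · have e1 : w * (x₁ * (star w₁ * (N * C) * w₁)) = C * w₁ := by
      conv_rhs => rw [← hAC]
      simp only [ha, hw₁, mul_assoc]
    rw [e1]
    intro hmem
    have h1 : C * a ∈ P := by
      have : C * a = C * w₁ * star w₁ := (mul_assoc C w₁ (star w₁)).symm
      rw [this]
      exact P.mul_mem_right _ _ hmem
    have h2 : C ∈ P := by
      have : C = C * a * N := by
        rw [mul_assoc]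
        exact hCA.symm
      rw [this]
      exact P.mul_mem_right _ _ h1
    have h3 : dI P a ≤ τ := by
      refine (dI_le h2).trans ?_
      rw [norm_sub_rev]
      exact norm_cut_sub_le hτ0.le ha0
    have h4 : dI P w₁ ^ 2 ≤ τ := by
      have h5 := dI_mul_star_self hP (star w₁)
      rw [star_star, dI_star hP] at h5
      rw [← h5]
      exact h3
    have h5 := hd_le w₁ (by rw [e11]; exact h11)
    have h6 : η * 3 ≤ d := by nlinarith [mul_self_nonneg κ]
    have hτd : τ = d / 2 := hτ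
    linarith
  · have e2 : w * (x₂ - x₁ * (star w₁ * N * w₂)) = w₂ - a * N * w₂ := by
      simp only [ha, hw₁, hw₂, mul_sub, mul_assoc]
    rw [e2]
    intro hmem
    have h1 : dI P w₂ ≤ κ * η := by
      refine (dI_le hmem).trans ?_
      have e3 : w₂ - (w₂ - a * N * w₂) = N * (w₁ * (star w₁ * w₂)) := by
        have : a * N = N * a := nuE_comm hτ0 ha0
        rw [sub_sub_cancel, this, ha]
        noncomm_ring
      rw [e3]
      calc ‖N * (w₁ * (star w₁ * w₂))‖ ≤ ‖N‖ * (‖w₁‖ * ‖star w₁ * w₂‖) := by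
            refine (norm_mul_le _ _).trans ?_
            gcongr
            exact norm_mul_le _ _
        _ ≤ (1 / τ) * (R * η) := by
            have h4 : ‖star w₁ * w₂‖ ≤ η := by rw [e12]; exact h12.le
            have h5 : ‖N‖ ≤ 1 / τ := norm_nuE_le hτ0 a
            gcongr
        _ = κ * η := by rw [hκ]; ring
    have h5 := hd_le w₂ (by rw [e22]; exact h22)
    have h6 : dI P w₂ ^ 2 ≤ (κ * η) ^ 2 := by
      have := dI_nonneg (L := P) w₂
      gcongr
    have h7 : (κ * η) ^ 2 ≤ κ * κ * η := by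
      have : η * η ≤ η := by nlinarith
      have h8 : 0 ≤ κ * κ := by positivity
      nlinarith [mul_le_mul_of_nonneg_left this h8]
    nlinarith [mul_self_nonneg κ]

/-- A self-adjoint element `f` of a closed ideal acting as an approximate right unit on `v`. -/
lemma approx_right_unit {P : TwoSidedIdeal A} (hP : IsClosed (P : Set A)) {v : A} (hv : v ∈ P)
    {η : ℝ} (hη : 0 < η) : ∃ f ∈ P, ‖v - v * f‖ < η := by
  set r : A := star v * v with hr
  have hr0 : 0 ≤ r := star_mul_self_nonneg v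
  have hrP : r ∈ P := P.mul_mem_left _ _ hv
  set M : ℝ := 2 / (η * η) with hM
  have hM0 : 0 < M := by positivity
  set φ : ℝ → ℝ := fun t => min (M * t) 1 with hφ
  have hφc : Continuous φ := by fun_prop
  have hφ0 : φ 0 = 0 := by simp [hφ]
  set f : A := cfcₙ φ r with hf
  have hfP : f ∈ P := cfcₙ_mem_ideal hP hrP φ
  have hfs : star f = f := (cfcₙ_predicate φ r : IsSelfAdjoint f).star_eq
  refine ⟨f, hfP, ?_⟩
  have e : star (v - v * f) * (v - v * f) = r - r * f - f * r + f * r * f := by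
    rw [star_sub, star_mul, hfs, hr]
    noncomm_ring
  have h1 : r * f = cfcₙ (fun t => t * φ t) r := by
    rw [cfcₙ_mul (fun t : ℝ => t) φ r (hg0 := hφ0), cfcₙ_id' ℝ r]
  have h2 : f * r = cfcₙ (fun t => φ t * t) r := by
    rw [cfcₙ_mul φ (fun t : ℝ => t) r (hf0 := hφ0), cfcₙ_id' ℝ r]
  have h3 : f * r * f = cfcₙ (fun t => φ t * t * φ t) r := by
    rw [h2, cfcₙ_mul (fun t : ℝ => φ t * t) φ r (hf0 := by simp [hφ0]) (hg0 := hφ0)]
  have e2 : star (v - v * f) * (v - v * f)
      = cfcₙ (fun t => t - t * φ t - φ t * t + φ t * t * φ t) r := by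
    rw [e, h3, h1, h2]
    rw [cfcₙ_add (fun t => t - t * φ t - φ t * t) (fun t => φ t * t * φ t) r
        (hf0 := by simp [hφ0]) (hg0 := by simp [hφ0]),
      cfcₙ_sub (fun t => t - t * φ t) (fun t => φ t * t) r
        (hf0 := by simp [hφ0]) (hg0 := by simp [hφ0]),
      cfcₙ_sub (fun t : ℝ => t) (fun t => t * φ t) r
        (hf0 := rfl) (hg0 := by simp [hφ0]), cfcₙ_id' ℝ r]
  have hb : ‖star (v - v * f) * (v - v * f)‖ ≤ 1 / M := by
    rw [e2]
    refine norm_cfcₙ_le fun t ht => ?_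
    have ht0 : 0 ≤ t := NonnegSpectrumClass.quasispectrum_nonneg_of_nonneg r hr0 t ht
    have e3 : t - t * φ t - φ t * t + φ t * t * φ t = t * ((1 - φ t) * (1 - φ t)) := by ring
    rw [e3, Real.norm_eq_abs]
    rcases le_total (M * t) 1 with h | h
    · have h4 : φ t = M * t := min_eq_left h
      have h5 : 0 ≤ 1 - M * t := by linarith
      have h6 : 0 ≤ M * t := by positivity
      rw [h4, abs_of_nonneg (by positivity)]
      have h7 : (1 - M * t) * (1 - M * t) ≤ 1 := by nlinarith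
      have h8 : t ≤ 1 / M := by
        rw [le_div_iff₀ hM0]
        linarith
      calc t * ((1 - M * t) * (1 - M * t)) ≤ t * 1 := by gcongr
        _ ≤ 1 / M := by linarith
    · have h4 : φ t = 1 := min_eq_right h
      rw [h4]
      simp only [sub_self, mul_zero, abs_zero]
      positivity
  rw [CStarRing.norm_star_mul_self] at hb
  have h9 : 1 / M = η * η / 2 := by
    rw [hM]
    field_simp
  rw [h9] at hb
  by_contra hcon
  have hcon' : η ≤ ‖v - v * f‖ := not_lt.mp hcon
  nlinarith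

omit [PartialOrder A] [StarOrderedRing A] in
lemma norm_nuE_conj_le [PartialOrder A] [StarOrderedRing A] {σ : ℝ} (hσ : 0 < σ) {V : A}
    (hV : 0 ≤ V) : ‖nuE σ V * V * nuE σ V‖ ≤ 1 / σ := by
  have hc := muF_continuous hσ
  have e : nuE σ V * V * nuE σ V = cfcₙ (fun t => muF σ t * t * muF σ t) V := by
    unfold nuE
    rw [cfcₙ_mul (fun t : ℝ => muF σ t * t) (muF σ) V (hf0 := by simp [muF_zero]) (hg0 := muF_zero),
      cfcₙ_mul (muF σ) (fun t : ℝ => t) V (hf0 := muF_zero), cfcₙ_id' ℝ V]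
  rw [e]
  refine norm_cfcₙ_le fun t ht => ?_
  have ht0 : 0 ≤ t := NonnegSpectrumClass.quasispectrum_nonneg_of_nonneg V hV t ht
  have e2 : muF σ t * t * muF σ t = t * (muF σ t * muF σ t) := by ring
  rw [e2, Real.norm_eq_abs, abs_of_nonneg (mul_nonneg ht0 (mul_self_nonneg _))]
  exact mul_muF_sq_le hσ ht0

/-- Case `x y ∈ P`: one can choose `t` after everything else, with `x y t` small. -/
lemma exists_t_of_mem (hpi : PurelyInfinite A) {P : TwoSidedIdeal A} (hP : IsClosed (P : Set A))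
    {x y : A} (hy : 0 ≤ y) (hxy : x * y ∈ P) {δ : ℝ} (hδ : 0 < δ) (hd : δ ≤ dI P (y * y))
    (hcomp : ∀ L : TwoSidedIdeal A, IsClosed (L : Set A) → ¬ L ≤ P → cut δ (y * y) ∈ L)
    {δ' η : ℝ} (hδ' : 0 < δ') (hη : 0 < η) :
    ∃ t, ‖star t * (y * y) * t - cut δ' (cut δ (y * y))‖ < η ∧ ‖x * y * t‖ < η := by
  set b : A := y * y with hb
  set h : A := cut δ' (cut δ b) with hh
  have hys : star y = y := hy.isSelfAdjoint.star_eq
  set σ : ℝ := δ / 2 with hσ
  have hσ0 : 0 < σ := by positivity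
  set η₀ : ℝ := min η 1 with hη₀
  have hη₀0 : 0 < η₀ := lt_min hη one_pos
  set B₁ : ℝ := 1 / σ + 1 with hB₁
  have hB₁0 : 0 < B₁ := by positivity
  set B₂ : ℝ := ‖h‖ + η₀ + 1 with hB₂
  have hB₂0 : 0 < B₂ := by positivity
  obtain ⟨f, hfP, hf⟩ := approx_right_unit hP hxy (η := η / (B₁ * B₂)) (by positivity)
  set z : A := y - y * f with hz
  have hxz : ‖x * z‖ < η / (B₁ * B₂) := by
    have : x * z = x * y - x * y * f := by rw [hz, mul_sub, mul_assoc]
    rwa [this]
  set V : A := z * star z with hV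
  have hV0 : 0 ≤ V := mul_star_self_nonneg z
  have hsf : star f ∈ P := star_mem_of_isClosed hP hfP
  have hVb : V - b ∈ P := by
    have e : V - b = y * (f * star f) * y - y * f * y - y * star f * y := by
      rw [hV, hz, hb, star_sub, star_mul, hys]
      noncomm_ring
    rw [e]
    refine P.sub_mem (P.sub_mem ?_ ?_) ?_
    · exact P.mul_mem_right _ _ (P.mul_mem_left _ _ (P.mul_mem_right _ _ hfP))
    · exact P.mul_mem_right _ _ (P.mul_mem_left _ _ hfP)
    · exact P.mul_mem_right _ _ (P.mul_mem_left _ _ hsf)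
  have hdV : dI P V = dI P b := dI_eq_of_sub_mem hVb
  set D : A := cut σ V with hD
  have hDP : D ∉ P := by
    intro hmem
    have h1 : dI P V ≤ σ := by
      refine (dI_le hmem).trans ?_
      rw [norm_sub_rev]
      exact norm_cut_sub_le hσ0.le hV0
    have h2 : σ < δ := by rw [hσ]; linarith
    rw [hdV] at h1
    linarith
  set N : A := nuE σ V with hN
  have hAC : V * N * D = D := mul_nuE_mul_cut hσ0 hV0
  set Y : A := star z * (N * D) with hY
  have hzY : z * Y = D := by
    have e0 : z * Y = V * N * D := by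
      rw [hY, hV]
      noncomm_ring
    rw [e0, hAC]
  set t₀ : A := Y - f * Y with ht₀
  have hyt₀ : y * t₀ = D := by
    rw [← hzY, ht₀, hz]
    noncomm_ring
  set z₂ : A := star D * D with hz₂
  have hz₂0 : 0 ≤ z₂ := star_mul_self_nonneg D
  have hz₂P : z₂ ∉ P := fun hm => hDP (mem_of_star_mul_self_mem hP hm)
  have hm : cut δ b ∈ idealOf {z₂} := by
    refine hcomp _ (isClosed_idealOf _) fun hle => hz₂P (hle (subset_idealOf rfl))
  obtain ⟨d, hd'⟩ := exists_conj_of_mem hpi hz₂0 (cut_nonneg δ b) hm hδ' hη₀0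
  refine ⟨t₀ * d, ?_, ?_⟩
  · have e : star (t₀ * d) * b * (t₀ * d) = star d * z₂ * d := by
      have e1 : star D = star t₀ * y := by rw [← hyt₀, star_mul, hys]
      rw [hz₂, e1, star_mul, hb, ← hyt₀]
      noncomm_ring
    rw [e]
    exact lt_of_lt_of_le hd' (min_le_left _ _)
  · have e : x * y * (t₀ * d) = (x * z) * (star z * N) * (D * d) := by
      have e1 : x * y * (t₀ * d) = x * (y * t₀) * d := by noncomm_ring
      have e2 : (x * z) * (star z * N) * (D * d) = x * (V * N * D) * d := by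
        rw [hV]
        noncomm_ring
      rw [e1, e2, hyt₀, hAC]
    rw [e]
    have h1 : ‖star z * N‖ ≤ B₁ := by
      have h2 : ‖star z * N‖ * ‖star z * N‖ ≤ 1 / σ := by
        rw [← CStarRing.norm_star_mul_self, star_mul, star_star, (nuE_selfAdjoint σ V).star_eq]
        have e3 : N * z * (star z * N) = N * V * N := by
          rw [hV]
          noncomm_ring
        rw [e3]
        exact norm_nuE_conj_le hσ0 hV0
      have h3 := norm_nonneg (star z * N)
      rw [hB₁]
      nlinarith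
    have h4 : ‖D * d‖ ≤ B₂ := by
      have h5 : ‖D * d‖ * ‖D * d‖ ≤ ‖h‖ + η₀ := by
        rw [← CStarRing.norm_star_mul_self, star_mul]
        have e4 : star d * star D * (D * d) = (star d * z₂ * d - h) + h := by
          rw [hz₂]
          noncomm_ring
        rw [e4]
        calc _ ≤ ‖star d * z₂ * d - h‖ + ‖h‖ := norm_add_le _ _
          _ ≤ ‖h‖ + η₀ := by linarith [hd'.le]
      have h6 := norm_nonneg (D * d)
      rw [hB₂]
      nlinarith
    calc ‖x * z * (star z * N) * (D * d)‖ ≤ ‖x * z‖ * ‖star z * N‖ * ‖D * d‖ := norm_mul₃_le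
      _ ≤ ‖x * z‖ * B₁ * B₂ := by gcongr
      _ < (η / (B₁ * B₂)) * B₁ * B₂ := by gcongr
      _ = η := by field_simp

omit [StarOrderedRing A] in
lemma isClosed_bot_ideal : IsClosed ((⊥ : TwoSidedIdeal A) : Set A) := by
  have : ((⊥ : TwoSidedIdeal A) : Set A) = {0} := by
    ext z
    simp [TwoSidedIdeal.mem_bot]
  rw [this]
  exact isClosed_singleton

omit [StarOrderedRing A] in
lemma norm_le_dI_bot (a : A) : ‖a‖ ≤ dI (⊥ : TwoSidedIdeal A) a := by
  unfold dI
  refine (Metric.le_infDist ⟨0, (⊥ : TwoSidedIdeal A).zero_mem⟩).mpr fun p hp => ?_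
  have hp0 : p = 0 := by
    have : p ∈ (⊥ : TwoSidedIdeal A) := hp
    simpa [TwoSidedIdeal.mem_bot] using this
  rw [hp0, dist_zero_right]

omit [StarOrderedRing A] in
/-- Under the chain condition a finite family in a union of a nonempty family of ideals lies in
one member of the family. -/
lemma exists_member_of_chain (hch : IdealsLinearlyOrdered A) {F : Set (TwoSidedIdeal A)}
    (hF : ∀ L ∈ F, IsClosed (L : Set A)) {L₀ : TwoSidedIdeal A} (hL₀ : L₀ ∈ F) (M : ℕ) (z : Fin M → A)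
    (hz : ∀ i, ∃ L ∈ F, z i ∈ L) : ∃ L ∈ F, ∀ i, z i ∈ L := by
  induction M with
  | zero => exact ⟨L₀, hL₀, fun i => i.elim0⟩
  | succ M ih =>
    obtain ⟨L, hL, hLz⟩ := ih (fun i => z i.succ) (fun i => hz _)
    obtain ⟨L', hL', hz0⟩ := hz 0
    rcases hch L L' (hF L hL) (hF L' hL') with hle | hle
    · refine ⟨L', hL', fun i => ?_⟩
      refine Fin.cases hz0 (fun i => ?_) i
      exact hle (hLz i)
    · refine ⟨L, hL, fun i => ?_⟩
      refine Fin.cases (hle hz0) (fun i => ?_) i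
      exact hLz i

/-- The ideal where `a` peaks at level `δ`, under the chain condition. -/
lemma exists_peak_of_chain (hch : IdealsLinearlyOrdered A) {a : A} (ha : 0 ≤ a) (δ : ℝ) :
    ∃ P : TwoSidedIdeal A, IsClosed (P : Set A) ∧
      (∀ L : TwoSidedIdeal A, IsClosed (L : Set A) → ¬ L ≤ P → cut δ a ∈ L) ∧
      (δ ≤ ‖a‖ → δ ≤ dI P a) := by
  set F : Set (TwoSidedIdeal A) := {L | IsClosed (L : Set A) ∧ δ ≤ dI L a} with hF
  set S : Set A := {z | ∃ L ∈ F, z ∈ L} with hS
  refine ⟨idealOf S, isClosed_idealOf S, ?_, ?_⟩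
  · intro L hL hle
    have hLF : L ∉ F := by
      intro hLF
      exact hle fun z hz => subset_idealOf ⟨L, hLF, hz⟩
    have hlt : dI L a < δ := by
      by_contra hcon
      exact hLF ⟨hL, not_lt.mp hcon⟩
    exact cut_mem_of_dI_lt hL ha hlt
  · intro hδ
    have hbot : (⊥ : TwoSidedIdeal A) ∈ F := ⟨isClosed_bot_ideal, hδ.trans (norm_le_dI_bot a)⟩
    unfold dI
    refine (Metric.le_infDist ⟨0, (idealOf S).zero_mem⟩).mpr fun p hp => ?_
    have hp' : p ∈ idealOf S := hp
    rw [mem_idealOf_iff] at hp'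
    refine le_of_forall_pos_lt_add fun ε hε => ?_
    obtain ⟨M, u, z, v, hz, hm⟩ := hp' ε hε
    obtain ⟨L, hL, hLz⟩ := exists_member_of_chain hch (fun L hL => hL.1) hbot M z hz
    have hs : ∑ i, u i * z i * v i ∈ L :=
      sum_mem_ideal _ _ fun i _ => L.mul_mem_right _ _ (L.mul_mem_left _ _ (hLz i))
    have h1 : δ ≤ ‖a - ∑ i, u i * z i * v i‖ := hL.2.trans (dI_le hs)
    have e : a - ∑ i, u i * z i * v i = (a - p) + (p - ∑ i, u i * z i * v i) := by abel
    rw [e] at h1
    have h2 := norm_add_le (a - p) (p - ∑ i, u i * z i * v i)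
    rw [dist_eq_norm]
    linarith

omit [PartialOrder A] [StarOrderedRing A] in
lemma cut_mem_idealOf_self [PartialOrder A] [StarOrderedRing A] (δ : ℝ) (a : A) :
    cut δ a ∈ idealOf {a} := by
  unfold cut
  exact cfcₙ_mem_ideal (isClosed_idealOf {a}) (subset_idealOf (Set.mem_singleton a)) _

/-- The asymmetric core of the chain case. -/
lemma strong_core (hpi : PurelyInfinite A) {x y : A} (hx : 0 ≤ x) (hy : 0 ≤ y) {δ δ' η : ℝ}
    (hδ : 0 < δ) (hδ' : 0 < δ') (hη : 0 < η) {P₁ P₂ : TwoSidedIdeal A}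
    (hP₁ : IsClosed (P₁ : Set A)) (hP₂ : IsClosed (P₂ : Set A)) (hle : P₁ ≤ P₂)
    (h₁ : ∀ L : TwoSidedIdeal A, IsClosed (L : Set A) → ¬ L ≤ P₁ → cut δ (x * x) ∈ L)
    (h₂ : ∀ L : TwoSidedIdeal A, IsClosed (L : Set A) → ¬ L ≤ P₂ → cut δ (y * y) ∈ L)
    (hd₂ : δ ≤ dI P₂ (y * y)) :
    ∃ s t : A, ‖star s * (x * x) * s - cut δ' (cut δ (x * x))‖ < η ∧
      ‖star t * (y * y) * t - cut δ' (cut δ (y * y))‖ < η ∧ ‖star s * x * y * t‖ < η := by
  have hxs : star x = x := hx.isSelfAdjoint.star_eq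
  have hys : star y = y := hy.isSelfAdjoint.star_eq
  have ha : 0 ≤ x * x := by
    have := star_mul_self_nonneg x
    rwa [hxs] at this
  by_cases hxy : x * y ∈ P₂
  · -- the case where `x y` vanishes at the peak of `y`
    obtain ⟨s, hs⟩ := exists_conj_of_mem hpi ha (cut_nonneg δ (x * x))
      (cut_mem_idealOf_self δ (x * x)) hδ' hη
    obtain ⟨t, ht1, ht2⟩ := exists_t_of_mem hpi hP₂ hy hxy hδ hd₂ h₂ hδ'
      (η := min η (η / (‖s‖ + 1))) (lt_min hη (by positivity))
    refine ⟨s, t, hs, lt_of_lt_of_le ht1 (min_le_left _ _), ?_⟩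
    have e : star s * x * y * t = star s * (x * y * t) := by noncomm_ring
    rw [e]
    have h3 : ‖x * y * t‖ < η / (‖s‖ + 1) := lt_of_lt_of_le ht2 (min_le_right _ _)
    calc _ ≤ ‖star s‖ * ‖x * y * t‖ := norm_mul_le _ _
      _ ≤ ‖s‖ * (η / (‖s‖ + 1)) := by rw [norm_star]; gcongr
      _ < (‖s‖ + 1) * (η / (‖s‖ + 1)) := by
          have : 0 < η / (‖s‖ + 1) := by positivity
          gcongr
          linarith
      _ = η := by field_simp
  · -- the case of an exact orthogonal pair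
    obtain ⟨c₁, c₂, horth, hE₁, hE₂⟩ := exact_pair hP₂ hxy
      ((ampProperlyInfinite_iff 1 _).mp (hpi _ (star_mul_self_nonneg _)))
    set E₁ : A := x * y * c₁ with hE₁'
    have hxE : x * E₁ ∉ P₁ := by
      intro hm
      apply hE₁
      apply hle
      apply mem_of_star_mul_self_mem hP₁
      have e1 : star E₁ = star (y * c₁) * x := by
        rw [hE₁', mul_assoc, star_mul x (y * c₁), hxs]
      have e : star E₁ * E₁ = star (y * c₁) * (x * E₁) := by
        rw [e1, mul_assoc]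
      rw [e]
      exact P₁.mul_mem_left _ _ hm
    have hyc : y * c₂ ∉ P₂ := by
      intro hm
      apply hE₂
      have e : x * y * c₂ = x * (y * c₂) := mul_assoc _ _ _
      rw [e]
      exact P₂.mul_mem_left _ _ hm
    set z₁ : A := star (x * E₁) * (x * E₁) with hz₁
    set z₂ : A := star (y * c₂) * (y * c₂) with hz₂
    have hz₁0 : 0 ≤ z₁ := star_mul_self_nonneg _
    have hz₂0 : 0 ≤ z₂ := star_mul_self_nonneg _
    have hz₁P : z₁ ∉ P₁ := fun hm => hxE (mem_of_star_mul_self_mem hP₁ hm)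
    have hz₂P : z₂ ∉ P₂ := fun hm => hyc (mem_of_star_mul_self_mem hP₂ hm)
    have hm₁ : cut δ (x * x) ∈ idealOf {z₁} :=
      h₁ _ (isClosed_idealOf _) fun hl => hz₁P (hl (subset_idealOf rfl))
    have hm₂ : cut δ (y * y) ∈ idealOf {z₂} :=
      h₂ _ (isClosed_idealOf _) fun hl => hz₂P (hl (subset_idealOf rfl))
    obtain ⟨c', hc'⟩ := exists_conj_of_mem hpi hz₁0 (cut_nonneg _ _) hm₁ hδ' hη
    obtain ⟨d', hd'⟩ := exists_conj_of_mem hpi hz₂0 (cut_nonneg _ _) hm₂ hδ' hη
    refine ⟨E₁ * c', c₂ * d', ?_, ?_, ?_⟩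
    · have e : star (E₁ * c') * (x * x) * (E₁ * c') = star c' * z₁ * c' := by
        rw [hz₁, star_mul E₁ c', star_mul x E₁, hxs]
        noncomm_ring
      rw [e]
      exact hc'
    · have e : star (c₂ * d') * (y * y) * (c₂ * d') = star d' * z₂ * d' := by
        rw [hz₂, star_mul c₂ d', star_mul y c₂, hys]
        noncomm_ring
      rw [e]
      exact hd'
    · have e : star (E₁ * c') * x * y * (c₂ * d') = star c' * (star E₁ * (x * y * c₂)) * d' := by
        rw [star_mul E₁ c']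
        noncomm_ring
      rw [e, horth]
      simpa using hη

/-- Under the chain condition, purely infinite algebras are strongly purely infinite. -/
theorem stronglyPurelyInfinite_of_chain (hch : IdealsLinearlyOrdered A)
    (hpi : PurelyInfinite A) : StronglyPurelyInfinite A := by
  intro x y hx hy ε hε
  set δ : ℝ := ε / 4 with hδ
  have hδ0 : 0 < δ := by positivity
  have hxs : star x = x := hx.isSelfAdjoint.star_eq
  have hys : star y = y := hy.isSelfAdjoint.star_eq
  have ha : 0 ≤ x * x := by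
    have := star_mul_self_nonneg x
    rwa [hxs] at this
  have hb : 0 ≤ y * y := by
    have := star_mul_self_nonneg y
    rwa [hys] at this
  have key : ∀ {a : A}, 0 ≤ a → ∀ {s : A}, ‖star s * a * s - cut δ (cut δ a)‖ < δ →
      ‖star s * a * s - a‖ < ε := by
    intro a ha s hs
    have h1 : ‖cut δ (cut δ a) - a‖ ≤ δ + δ := by
      rw [cut_cut hδ0.le hδ0.le ha]
      exact norm_cut_sub_le (by positivity) ha
    have e : star s * a * s - a = (star s * a * s - cut δ (cut δ a)) + (cut δ (cut δ a) - a) := by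
      abel
    rw [e]
    calc _ ≤ _ := norm_add_le _ _
      _ < δ + (δ + δ) := by linarith
      _ < ε := by rw [hδ]; linarith
  by_cases hna : δ ≤ ‖x * x‖
  · by_cases hnb : δ ≤ ‖y * y‖
    · obtain ⟨P₁, hP₁, h₁, hd₁⟩ := exists_peak_of_chain hch ha δ
      obtain ⟨P₂, hP₂, h₂, hd₂⟩ := exists_peak_of_chain hch hb δ
      rcases hch P₁ P₂ hP₁ hP₂ with hle | hle
      · obtain ⟨s, t, h1, h2, h3⟩ := strong_core hpi hx hy hδ0 hδ0 hδ0 hP₁ hP₂ hle h₁ h₂ (hd₂ hnb)
        refine ⟨s, t, key ha h1, key hb h2, by linarith⟩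
      · obtain ⟨t, s, h1, h2, h3⟩ := strong_core hpi hy hx hδ0 hδ0 hδ0 hP₂ hP₁ hle h₂ h₁ (hd₁ hna)
        refine ⟨s, t, key ha h2, key hb h1, ?_⟩
        have e : star s * x * y * t = star (star t * y * x * s) := by
          simp only [star_mul, star_star, hxs, hys, mul_assoc]
        rw [e, norm_star]
        linarith
    · -- `y` is small: take `t = 0`
      obtain ⟨s, hs⟩ := exists_conj_of_mem hpi ha (cut_nonneg δ (x * x))
        (cut_mem_idealOf_self δ (x * x)) hδ0 hδ0
      refine ⟨s, 0, key ha hs, ?_, by simpa using hε⟩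
      simp only [star_zero, zero_mul, zero_sub, norm_neg]
      have : ‖y * y‖ < δ := not_le.mp hnb
      rw [hδ] at this
      linarith
  · -- `x` is small: take `s = 0`
    obtain ⟨t, ht⟩ := exists_conj_of_mem hpi hb (cut_nonneg δ (y * y))
      (cut_mem_idealOf_self δ (y * y)) hδ0 hδ0
    refine ⟨0, t, ?_, key hb ht, by simpa using hε⟩
    simp only [star_zero, zero_mul, zero_sub, norm_neg]
    have : ‖x * x‖ < δ := not_le.mp hna
    rw [hδ] at this
    linarith

/-- Under the chain condition, weakly purely infinite algebras are strongly purely infinite. -/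
theorem stronglyPurelyInfinite_of_chain_of_weakly (hch : IdealsLinearlyOrdered A)
    (hw : WeaklyPurelyInfinite A) : StronglyPurelyInfinite A :=
  stronglyPurelyInfinite_of_chain hch (purelyInfinite_of_chain hch hw)

end Vale.Agent.Lib.P133
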